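import Vale.Agent.P037.Rules

namespace Vale.Agent.P037

open Finset

variable {K G n0 Z : ℕ} {good : ℕ → Prop} {N : Ln → Ln → Prop}

lemma slot_facts (Zg e e' : ℕ) (h : e < e') : e * Zg + Zg ≤ e' * Zg := by
  have := Nat.mul_le_mul_right Zg (show e + 1 ≤ e' from h)
  rw [add_mul, one_mul] at this
  exact this

open Classical in
lemma Rules.slots (R : Rules K G n0 Z good N) {Zg E : ℕ} (hE : 0 < E) (hZg : 2 ≤ Zg) (hZ : Z = E * Zg)
    (S : Finset ℕ) (hS : ∀ x ∈ S, good x) :
    ∃ e < E, ∃ e' < E, ∃ Am : Finset ℕ, E * Am.card ≤ 2 * S.card ∧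
      ∀ x ∈ S, x ∉ Am → ∀ y ∈ S, ¬ N (W0 x (e * Zg + Zg - 1)) (W0 y (e' * Zg)) →
        ¬ N (W0 x (e * Zg)) (W0 y (e' * Zg + Zg - 1)) := by
  let F : ℕ × ℕ → Ln := fun p => W0 p.1 (p.2 * Zg)
  let L : ℕ × ℕ → Ln := fun p => W0 p.1 (p.2 * Zg + Zg - 1)
  let P := S ×ˢ range E
  have hb : ∀ p ∈ P, good p.1 ∧ p.2 * Zg + Zg ≤ Z := by
    intro p hp
    simp only [P, mem_product, mem_range] at hp
    exact ⟨hS _ hp.1, hZ ▸ slot_facts Zg _ _ hp.2⟩
  have hord : ∀ p q : ℕ × ℕ, p ≠ q → (p.1 < q.1 ∨ (p.1 = q.1 ∧ p.2 < q.2)) ∨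
      (q.1 < p.1 ∨ (q.1 = p.1 ∧ q.2 < p.2)) := by
    rintro ⟨a, b⟩ ⟨c, d⟩ h
    simp only [ne_eq, Prod.mk.injEq] at h
    simp only
    omega
  have hsl : ∀ p q : ℕ × ℕ, (p.1 < q.1 ∨ (p.1 = q.1 ∧ p.2 < q.2)) →
      p.2 * Zg + Zg - 1 ≠ q.2 * Zg ∧
        (p.1 < q.1 ∨ (p.1 = q.1 ∧ p.2 * Zg + Zg - 1 < q.2 * Zg)) := by
    intro p q h
    rcases lt_trichotomy p.2 q.2 with h' | h' | h'
    · have := slot_facts Zg _ _ h'; omega
    · rw [h']; omega
    · have := slot_facts Zg _ _ h'; omega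
  have hrow : ∀ p ∈ P, ∀ q ∈ P, ∀ c, gd K G Z good c → (p.1 < q.1 ∨ (p.1 = q.1 ∧ p.2 < q.2)) →
      N (F q) c → N (L p) c := by
    intro p hp q hq c hc h hN
    have a1 := hb p hp
    have a2 := hb q hq
    have a3 := hsl p q h
    exact R.R1u a1.1 a2.1 hc (by omega) (by omega) (Nat.zero_le _) (Nat.zero_le _) (Nat.zero_le _)
      (Nat.zero_le _) a3.1 a3.2 (by simp [bt]) hN
  have hcol : ∀ p ∈ P, ∀ q ∈ P, ∀ r ∈ P, (p.1 < q.1 ∨ (p.1 = q.1 ∧ p.2 < q.2)) →
      N (L r) (L p) → N (L r) (F q) := by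
    intro p hp q hq r hr h hN
    have a1 := hb p hp
    have a2 := hb q hq
    have a3 := hsl p q h
    have a4 := hb r hr
    exact R.R2u a1.1 a2.1 (gd_W0 a4.1 (by omega)) (by omega) (by omega) (Nat.zero_le _)
      (Nat.zero_le _) (Nat.zero_le _) (Nat.zero_le _) a3.1 a3.2 rfl hN
  let T := (P ×ˢ P).filter fun t => N (F t.1) (L t.2) ∧ ¬ N (L t.1) (F t.2)
  have hT1 : (T.filter fun t => N (L t.1) (L t.2)).card ≤ P.card := by
    refine card_le_card_of_injOn Prod.fst (fun t ht => ?_) ?_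
    · simp only [T, coe_filter, mem_filter, mem_product, Set.mem_ofPred_eq] at ht
      exact ht.1.1.1
    · rintro ⟨r, p⟩ h1 ⟨r', q⟩ h2 h
      simp only [T, coe_filter, mem_filter, mem_product, Set.mem_ofPred_eq] at h1 h2 h
      subst h
      by_contra hne
      rcases hord p q (fun e => hne (by rw [e])) with h | h
      · exact h2.1.2.2 (hcol p h1.1.1.2 q h2.1.1.2 r h1.1.1.1 h h1.2)
      · exact h1.1.2.2 (hcol q h2.1.1.2 p h1.1.1.2 r h1.1.1.1 h h2.2)
  have hT2 : (T.filter fun t => ¬ N (L t.1) (L t.2)).card ≤ P.card := by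
    refine card_le_card_of_injOn Prod.snd (fun t ht => ?_) ?_
    · simp only [T, coe_filter, mem_filter, mem_product, Set.mem_ofPred_eq] at ht
      exact ht.1.1.2
    · rintro ⟨p, c⟩ h1 ⟨q, c'⟩ h2 h
      simp only [T, coe_filter, mem_filter, mem_product, Set.mem_ofPred_eq] at h1 h2 h
      subst h
      by_contra hne
      have hc : gd K G Z good (L c) := by
        have := hb c h1.1.1.2
        exact gd_W0 this.1 (by omega)
      rcases hord p q (fun e => hne (by rw [e])) with h | h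
      · exact h1.2 (hrow p h1.1.1.1 q h2.1.1.1 _ hc h h2.1.2.1)
      · exact h2.2 (hrow q h2.1.1.1 p h1.1.1.1 _ hc h h1.1.2.1)
  have hT : T.card ≤ 2 * (S.card * E) := by
    have := card_filter_add_card_filter_not (s := T) (fun t => N (L t.1) (L t.2))
    have e : P.card = S.card * E := by simp [P]
    omega
  have hfib := card_eq_sum_card_fiberwise (s := T) (t := range E ×ˢ range E)
    (f := fun t => (t.1.2, t.2.2)) (fun t ht => by
      simp only [T, P, coe_filter, mem_product, Set.mem_ofPred_eq, mem_range] at ht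
      simp only [coe_product, coe_range, Set.mem_prod, Set.mem_Iio]
      exact ⟨ht.1.1.2, ht.1.2.2⟩)
  obtain ⟨⟨e, e'⟩, he, hle⟩ := exists_le_of_sum_le (s := range E ×ˢ range E)
    (f := fun b => E * (T.filter fun t => (t.1.2, t.2.2) = b).card) (g := fun _ => 2 * S.card)
    ⟨(0, 0), by simp [hE]⟩ (by
      rw [← mul_sum, ← hfib]
      simp only [sum_const, card_product, card_range, smul_eq_mul]
      exact (Nat.mul_le_mul_left E hT).trans (le_of_eq (by ring)))
  simp only [mem_product, mem_range] at he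
  refine ⟨e, he.1, e', he.2, (T.filter fun t => (t.1.2, t.2.2) = (e, e')).image fun t => t.1.1,
    le_trans (Nat.mul_le_mul_left _ card_image_le) hle, fun x hx hxA y hy h1 h2 => hxA ?_⟩
  refine mem_image.2 ⟨((x, e), (y, e')), ?_, rfl⟩
  simp only [T, P, mem_filter, mem_product, mem_range, and_true]
  exact ⟨⟨⟨hx, he.1⟩, hy, he.2⟩, h2, h1⟩

lemma enum' (I : Finset ℕ) (n0 : ℕ) (hI : ∀ x ∈ I, x < n0) : ∃ p : ℕ → ℕ,
    (∀ i < I.card, p i ∈ I) ∧ (∀ i i', i ≤ i' → i' < I.card → p i + (i' - i) ≤ p i') ∧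
    (∀ i < I.card, i ≤ p i ∧ p i + I.card ≤ i + n0) := by
  obtain ⟨p, h1, h2⟩ := enum I
  have h3 : ∀ i i', i ≤ i' → i' < I.card → p i + (i' - i) ≤ p i' := by
    intro i i' h h'
    have := h2 i (i' - i) (by omega)
    rwa [show i + (i' - i) = i' by omega] at this
  refine ⟨p, h1, h3, fun i hi => ⟨?_, ?_⟩⟩
  · have := h3 0 i (Nat.zero_le _) hi
    omega
  · have := h3 i (I.card - 1) (by omega) (by omega)
    have := hI _ (h1 (I.card - 1) (by omega))
    omega

theorem core [DecidablePred good] {G' : ℕ} (hG : G = G' + 1) (hK : K = 256 * G)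
    (hn : n0 = K * 2 ^ G') (hZ : Z = 100 * (4 * G + 4)) (R : Rules K G n0 Z good N)
    (hbad : 2500 * ((range n0).filter fun w => ¬ good w).card ≤ n0) : False := by
  classical
  set S := (range n0).filter (VG good n0) with hSdef
  have hSv : ∀ x ∈ S, VG good n0 x := fun x hx => (mem_filter.1 hx).2
  have hS1 : 2500 * n0 ≤ 2500 * S.card + 16 * n0 := by
    have h1 := card_notVG good n0 n0 0 (by simp)
    rw [← range_eq_Ico] at h1
    have h2 := card_filter_add_card_filter_not (s := range n0) (VG good n0)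
    rw [card_range, ← hSdef] at h2
    omega
  have hS2 : S.card ≤ n0 := (card_filter_le _ _).trans (card_range n0).le
  obtain ⟨e, he, e', he', Am, hAm, hamb⟩ := R.slots (Zg := 4 * G + 4) (by omega) (by omega) hZ S
    (fun x hx => (hSv x hx).good)
  have hzF := slot_facts (4 * G + 4) e 100 he
  have hzA := slot_facts (4 * G + 4) e' 100 he'
  generalize e * (4 * G + 4) = zF at *
  generalize e' * (4 * G + 4) = zA at *
  rw [← hZ] at hzF hzA
  have hI1 : S.card ≤ (S \ Am).card + Am.card := card_le_card_sdiff_add_card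
  have hI2 : (S \ Am).card ≤ S.card := card_le_card sdiff_subset
  obtain ⟨px, x1, x2, x3⟩ := enum' (S \ Am) n0 (fun x hx => (hSv x (mem_sdiff.1 hx).1).1)
  obtain ⟨py, y1, y2, y3⟩ := enum' S n0 (fun x hx => (hSv x hx).1)
  have xv : ∀ i < (S \ Am).card, VG good n0 (px i) := fun i hi => hSv _ (mem_sdiff.1 (x1 i hi)).1
  have yv : ∀ i < S.card, VG good n0 (py i) := fun i hi => hSv _ (y1 i hi)
  have hamb' : ∀ i < (S \ Am).card, ∀ j < S.card,
      ¬ N (W0 (px i) (zF + (4 * G + 4) - 1)) (W0 (py j) zA) →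
      ¬ N (W0 (px i) zF) (W0 (py j) (zA + (4 * G + 4) - 1)) := fun i hi j hj =>
    hamb _ (mem_sdiff.1 (x1 i hi)).1 (mem_sdiff.1 (x1 i hi)).2 _ (y1 j hj)
  generalize (S \ Am).card = nI at *
  generalize S.card = nJ at *
  generalize Am.card = nA at *
  have z0 : ∀ k : ℕ, 0 ≤ k := Nat.zero_le
  obtain ⟨θ, t1, t2, t3⟩ := exists_theta
    (fun i j => N (W0 (px i) (zF + (4 * G + 4) - 1)) (W0 (py j) zA)) nI nJ
    (fun i i' j h hi hj hN => by
      rcases eq_or_lt_of_le h with h' | h'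
      · rw [h']; exact hN
      have := x2 i i' h hi
      have c := gd_W0 (K := K) (G := G) (Z := Z) (yv j hj).good (show zA < Z by omega)
      exact R.R1u (fl' := false) (xv i (by omega)).good (xv i' hi).good c (by omega) (show zF < Z by omega)
        (z0 _) (z0 _) (z0 _) (z0 _) (by omega) (by omega) (by simp [bt])
        (R.R1u (xv i' hi).good (xv i' hi).good c (by omega) (by omega) (z0 _) (z0 _) (z0 _) (z0 _)
          (by omega) (by omega) (by simp [bt]) hN))
    (fun i j j' h hi hj hN => by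
      rcases eq_or_lt_of_le h with h' | h'
      · rw [← h']; exact hN
      have := y2 j j' h hj
      have c := gd_W0 (K := K) (G := G) (Z := Z) (xv i hi).good
        (show zF + (4 * G + 4) - 1 < Z by omega)
      exact R.R2u (yv j (by omega)).good (yv j' hj).good c (show zA + 1 < Z by omega) (by omega)
        (z0 _) (z0 _) (z0 _) (z0 _) (by omega) (by omega) rfl
        (R.R2u (yv j (by omega)).good (yv j (by omega)).good c (by omega) (by omega) (z0 _) (z0 _)
          (z0 _) (z0 _) (by omega) (by omega) rfl hN))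
  let Far : ℝ → ℕ → ℕ → ℕ → Prop := fun τ z i j => ∀ z' ≤ z, ∀ g ≤ G, ∀ m ≤ K,
    ((m * 2 ^ g : ℕ) : ℝ) ≤ τ → N ⟨px i, zF + z', false, 0, g, m⟩ (W0 (py j) zA)
  have hbase : ∀ i j, j < nJ → i < θ j → Far K (4 * G + 2) i j := by
    intro i j hj hi z' hz' g hg m hm hv
    have hi' : i < nI := hi.trans_le (t1 j)
    have hv' : m * 2 ^ g ≤ K := by exact_mod_cast hv
    exact R.R1u (xv i hi').good (xv i hi').good (gd_W0 (yv j hj).good (by omega)) (by omega)
      (by omega) hg (z0 _) hm (z0 _) (by omega) (by omega) (by simp only [bt]; simp; omega)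
      ((t2 i hi' j hj).2 hi)
  have hrec := recursion Far θ nJ K G (4 * G + 2) (by omega) t3
    (fun τ τ' z z' i j h1 h2 h z'' hz g hg m hm hv => h z'' (by omega) g hg m hm (hv.trans h1))
    hbase
    (fun g hg ia ja je L h1 h2 h3 hL hLK z' hz' g' hg' m' hm' hv => by
      have hs : 0 < 2 ^ g := by positivity
      have a1 := t1 ja
      have a2 := x2 ia (θ ja - 1) (by omega) (by omega)
      have a3 := y2 ja je h1 h2
      have hv' : 8 * (m' * 2 ^ g') + 96 * 2 ^ g ≤ 7 * L := by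
        have : (8 * ((m' * 2 ^ g' : ℕ) : ℝ) + 96 * 2 ^ g) ≤ 7 * L := by linarith
        exact_mod_cast this
      obtain ⟨a, ha⟩ : ∃ a, a = (7 * (θ ja - 1 - ia) - 16 * 2 ^ g - 16) / (8 * 2 ^ g) := ⟨_, rfl⟩
      have b1 := Nat.div_mul_le_self (7 * (θ ja - 1 - ia) - 16 * 2 ^ g - 16) (8 * 2 ^ g)
      have b2 := Nat.lt_div_mul_add (a := 7 * (θ ja - 1 - ia) - 16 * 2 ^ g - 16)
        (show 0 < 8 * 2 ^ g by omega)
      rw [← ha, show a * (8 * 2 ^ g) = 8 * (a * 2 ^ g) by ring] at b1 b2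
      have haK : a ≤ K := Nat.le_of_mul_le_mul_right (by omega : a * 2 ^ g ≤ K * 2 ^ g) hs
      have s1 := R.rphase (xv ia (by omega)) (xv (θ ja - 1) (by omega)).good
        (gd_W0 (yv ja (by omega)).good (show zA < Z by omega)) (by omega) hg a2
        (xv (θ ja - 1) (by omega)).1 (by omega)
        ((t2 (θ ja - 1) (by omega) ja (by omega)).2 (by omega)) (z := zF + (4 * G + 2))
        (by omega) hg haK (by
          rcases Nat.eq_zero_or_pos a with h | h
          · exact Or.inl h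
          · have : 0 < a * 2 ^ g := by positivity
            right; omega)
      exact R.cphase (xv ia (by omega)).good (yv ja (by omega)) (yv je h2).good (by omega) hg a3
        (yv je h2).1 (by omega) (by omega) s1 (by omega) hg' hm' (by omega))
    (fun g hg τ1 τ2 L1 L2 z i j1 i2 j h1 h2 h3 h4 h5 h6 h7 h8 h9 h10 f1 f2 z' hz' g' hg' m' hm' hv => by
      have hs : (0 : ℝ) < 2 ^ g := by positivity
      have hs' : 0 < 2 ^ g := by positivity
      have key : ∀ (τ : ℝ) (L i j : ℕ), j < nJ → i < θ j → τ ≤ L → L ≤ K * 2 ^ g → Far τ z i j →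
          ∃ a : ℕ, a * 2 ^ g ≤ L ∧ τ ≤ ((a * 2 ^ g : ℕ) : ℝ) + 2 ^ g ∧
            N ⟨px i, zF + z, false, 0, g, a⟩ (W0 (py j) zA) := by
        intro τ L i j hj hi hτ hL hF
        rcases le_total τ 0 with h | h
        · exact ⟨0, by simp, by simp only [zero_mul, Nat.cast_zero]; linarith,
            hbase i j hj hi z h2 g hg 0 (z0 _) (by simp)⟩
        · have a1 : (⌊τ / 2 ^ g⌋₊ : ℝ) ≤ τ / 2 ^ g := Nat.floor_le (by positivity)
          have a2 := Nat.lt_floor_add_one (τ / 2 ^ g)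
          rw [le_div_iff₀ hs] at a1
          rw [div_lt_iff₀ hs] at a2
          have a3 : ⌊τ / 2 ^ g⌋₊ * 2 ^ g ≤ L := by
            have : (⌊τ / 2 ^ g⌋₊ : ℝ) * 2 ^ g ≤ L := a1.trans hτ
            exact_mod_cast this
          refine ⟨⌊τ / 2 ^ g⌋₊, a3, by push_cast; linarith, hF z le_rfl g hg _
            (Nat.le_of_mul_le_mul_right (a3.trans hL) hs') (by push_cast; exact a1)⟩
      obtain ⟨a, a1, a2, a3⟩ := key τ1 L1 i j1 (by omega) h5 h8 (by omega) f1
      obtain ⟨b, b1, b2, b3⟩ := key τ2 L2 i2 j h4 h7 h9 (by omega) f2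
      have c1 := t1 j
      have c2 := x2 i i2 (by omega) (by omega)
      have c3 := y2 j1 j (by omega) h4
      have e : (a + b) * 2 ^ g = a * 2 ^ g + b * 2 ^ g := by ring
      refine R.add (xv i (by omega)).good (xv i2 (by omega)).good (yv j1 (by omega)).good
        (yv j h4).good (by omega) (by omega) (zB := zA + (4 * G + 4) - 1) (by omega) (by omega)
        (by omega) (zF := zF) (by omega) hg
        (Nat.le_of_mul_le_mul_right (by omega : (a + b) * 2 ^ g ≤ K * 2 ^ g) hs') a3 b3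
        (hamb' i2 (by omega) j1 (by omega) fun h => ?_) (by omega) hg' hm' ?_
      · have := (t2 i2 (by omega) j1 (by omega)).1 h
        omega
      · have : ((m' * 2 ^ g' : ℕ) : ℝ) ≤ ((a * 2 ^ g : ℕ) : ℝ) + ((b * 2 ^ g : ℕ) : ℝ) := by linarith
        rw [e]; exact_mod_cast this)
    le_rfl G le_rfl
  have hn256 : 256 ≤ n0 := by
    have : 1 ≤ 2 ^ G' := Nat.one_le_two_pow
    rw [hn]; nlinarith
  have hθ : ∀ j < nJ, 200 * (j - (n0 - nI) - θ j) ≤ n0 := by
    intro j hj
    have := R.col (W0 (py j) zA) (gd_W0 (yv j hj).good (by omega)) (Ico (θ j) (j - (n0 - nI)))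
      (fun i => W0 (px i) (zF + (4 * G + 4) - 1)) (fun i hi i' hi' h => by
        simp only [coe_Ico, Set.mem_Ico, W0] at hi hi' h
        rcases lt_trichotomy i i' with h' | h' | h'
        · have := x2 i i' h'.le (by omega); omega
        · exact h'
        · have := x2 i' i h'.le (by omega); omega)
      (fun i hi => by
        rw [mem_Ico] at hi
        refine ⟨gd_W0 (xv i (by omega)).good (by omega), fun h => ?_, ?_⟩
        · have := (t2 i (by omega) j hj).1 h
          omega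
        · have := x3 i (by omega)
          have := y3 j hj
          simp only [tr, W0, rd_zero, bt, Ln.val]
          simp; omega)
    rwa [Nat.card_Ico] at this
  have hn2 : K * 2 ^ G = 2 * n0 := by rw [hn, hG]; ring
  have hval : 8 * (160 * G * 2 ^ G') = 5 * n0 := by rw [hn, hK]; ring
  have := R.row ⟨px 0, zF + 0, false, 0, G', 160 * G⟩
    ⟨(xv 0 (by omega)).good, by simp only; omega, z0 _, by simp only; omega, by simp only; omega⟩
    (Ico (n0 / 2) (n0 / 2 + n0 / 200 + 1)) (fun j => W0 (py j) zA) (fun i hi i' hi' h => by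
      simp only [coe_Ico, Set.mem_Ico, W0] at hi hi' h
      rcases lt_trichotomy i i' with h' | h' | h'
      · have := y2 i i' h'.le (by omega); omega
      · exact h'
      · have := y2 i' i h'.le (by omega); omega)
    (fun j hj => by
      rw [mem_Ico] at hj
      have a1 := hθ j (by omega)
      have a2 := hθ (n0 - nI + n0 / 200 + 1) (by omega)
      have a3 := t1 j
      refine ⟨gd_W0 (yv j (by omega)).good (by omega), ?_, ?_⟩
      · refine hrec 0 (n0 - nI + n0 / 200 + 1) j _ (by omega) (by omega) (by omega) rfl (by omega)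
          0 (z0 _) G' (by omega) (160 * G) (by omega) ?_
        have hG0 : (0 : ℝ) < G := by rw [hG]; positivity
        have e : (7 / 8 - 32 * (G : ℝ) / K) = 3 / 4 := by
          rw [hK]; push_cast; field_simp; norm_num
        rw [e]
        have : 4 * (160 * G * 2 ^ G') ≤ 3 * (θ j - 0 + (j - (n0 - nI + n0 / 200 + 1) + 1)) := by
          omega
        have : (4 : ℝ) * ((160 * G * 2 ^ G' : ℕ) : ℝ) ≤
          3 * ((θ j - 0 + (j - (n0 - nI + n0 / 200 + 1) + 1) : ℕ) : ℝ) := by exact_mod_cast this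
        linarith
      · have := y3 j (by omega)
        simp only [tr, W0, rd_zero, bt, Ln.val]
        simp; omega)
  rw [Nat.card_Ico] at this
  omega

end Vale.Agent.P037
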