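import Vale.Agent.P037.Inst

namespace Vale.Agent.P037

open Finset Sum Classical

lemma sorted_enum {X : Type} [Fintype X] (rk : X → ℕ) {N : ℕ} (h : Fintype.card X = N) :
    ∃ e : Fin N ≃ X, Monotone fun i => rk (e i) := by
  let e0 : Fin N ≃ X := (Fintype.equivFinOfCardEq h).symm
  exact ⟨(Tuple.sort (fun i => rk (e0 i))).trans e0, Tuple.monotone_sort (fun i => rk (e0 i))⟩

lemma count_pairs {N W : ℕ} (Cl : Fin N → Fin N → Prop)
    (hW : ∀ x, (univ.filter fun y => Cl x y).card ≤ W) {i i' : Fin 11} (h : i ≠ i') :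
    (univ.filter fun p : (Fin 11 → Fin N) × (Fin 11 → Fin N) => Cl (p.1 i) (p.1 i')).card ≤
      W * N ^ 21 := by
  obtain ⟨k, rfl⟩ := Fin.exists_succAbove_eq h
  have := card_le_mul_card_image_of_maps_to
    (s := univ.filter fun p : (Fin 11 → Fin N) × (Fin 11 → Fin N) =>
      Cl (p.1 (i'.succAbove k)) (p.1 i'))
    (t := (univ : Finset ((Fin 10 → Fin N) × (Fin 11 → Fin N))))
    (f := fun p => (i'.removeNth p.1, p.2)) (fun _ _ => mem_univ _) W (fun q _ => by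
      refine le_trans (card_le_card_of_injOn (fun p => p.1 i') (fun p hp => ?_) ?_) (hW (q.1 k))
      · have h1 := mem_filter.1 (mem_coe.1 hp)
        have h2 := (mem_filter.1 h1.1).2
        refine mem_coe.2 (mem_filter.2 ⟨mem_univ _, ?_⟩)
        rw [← h1.2]
        exact h2
      · intro p hp p' hp' h
        have h1 := (mem_filter.1 (mem_coe.1 hp)).2
        have h2 := (mem_filter.1 (mem_coe.1 hp')).2
        have h3 := h1.trans h2.symm
        simp only [Prod.mk.injEq] at h3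
        refine Prod.ext ?_ h3.2
        rw [← Fin.insertNth_self_removeNth i' p.1, ← Fin.insertNth_self_removeNth i' p'.1, h3.1]
        exact congrArg (fun t => Fin.insertNth i' t (i'.removeNth p'.1)) h)
  simp only [card_univ, Fintype.card_prod, Fintype.card_fun, Fintype.card_fin] at this
  rwa [← pow_add] at this

theorem transport {M T : Type} [Fintype M] [Fintype T] (d : Dat M T) (b W D0 N : ℕ)
    (hN : Fintype.card (Lines M T b) = N)
    (hW : ∀ r, (univ.filter fun r' => d.fp r ≤ d.fp r' ∧ ¬ d.far r r').card ≤ W)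
    (hfar : ∀ B : Lines M T b → Lines M T b → Prop,
      (∀ ρ γ : Fin 11 → Lines M T b, (StrictMono fun i => d.rkR (ρ i)) →
        (StrictMono fun i => d.rkC (γ i)) → ¬ ∀ i j, B (ρ i) (γ j) ↔ i ≠ j) →
      D0 < 10 ^ 6 * dif d B) :
    ∃ A : Fin N → Fin N → Bool,
      (univ.filter fun p : (Fin 11 → Fin N) × (Fin 11 → Fin N) => StrictMono p.1 ∧ StrictMono p.2 ∧
        ∀ i j, A (p.1 i) (p.2 j) = decide (i ≠ j)).card ≤ 121 * (W * N ^ 21) ∧
      ∀ B : Fin N → Fin N → Bool,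
        (∀ p : (Fin 11 → Fin N) × (Fin 11 → Fin N), ¬ (StrictMono p.1 ∧ StrictMono p.2 ∧
          ∀ i j, B (p.1 i) (p.2 j) = decide (i ≠ j))) →
        D0 < 10 ^ 6 * (univ.filter fun p : Fin N × Fin N => A p.1 p.2 ≠ B p.1 p.2).card := by
  obtain ⟨eR, hR⟩ := sorted_enum d.rkR hN
  obtain ⟨eC, hC⟩ := sorted_enum d.rkC hN
  refine ⟨fun i j => decide (d.A (eR i) (eC j)), ?_, fun B hB => ?_⟩
  · obtain ⟨Cl, hdef⟩ : ∃ Cl : Fin N → Fin N → Prop, ∀ x y, Cl x y ↔ ∃ r r', eR x = inr r ∧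
      eR y = inr r' ∧ d.fp r ≤ d.fp r' ∧ ¬ d.far r r' := ⟨_, fun _ _ => Iff.rfl⟩
    have hCl : ∀ x, (univ.filter fun y => Cl x y).card ≤ W := by
      intro x
      obtain ⟨p, hx⟩ | ⟨r, hx⟩ : (∃ p, eR x = inl p) ∨ ∃ r, eR x = inr r := by
        cases eR x <;> simp
      · rw [filter_false_of_mem (fun y _ h => by simp [hdef, hx] at h)]
        simp
      · refine le_trans (card_le_card (t := (univ.filter fun r' => d.fp r ≤ d.fp r' ∧
          ¬ d.far r r').image fun r' => eR.symm (inr r')) fun y hy => ?_) (card_image_le.trans (hW r))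
        obtain ⟨s, r', h1, h2, h3⟩ := (hdef _ _).1 (mem_filter.1 hy).2
        rw [hx, inr.injEq] at h1
        subst h1
        exact mem_image.2 ⟨r', mem_filter.2 ⟨mem_univ _, h3⟩, by rw [← h2]; simp⟩
    refine le_trans (card_le_card (t := (univ : Finset (Fin 11 × Fin 11)).biUnion fun q =>
      univ.filter fun p : (Fin 11 → Fin N) × (Fin 11 → Fin N) =>
        q.1 ≠ q.2 ∧ Cl (p.1 q.1) (p.1 q.2)) fun p hp => ?_) (card_biUnion_le.trans ?_)
    · obtain ⟨h1, h2, h3⟩ := (mem_filter.1 hp).2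
      obtain ⟨i, i', r, r', a1, a2, a3, a4⟩ := rigid d (fun i => eR (p.1 i)) (fun i => eC (p.2 i))
        (fun i j => decide_eq_decide.1 (h3 i j)) (hR.comp h1.monotone) (hC.comp h2.monotone)
      exact mem_biUnion.2 ⟨(i, i'), mem_univ _, mem_filter.2 ⟨mem_univ _, a1,
        (hdef _ _).2 ⟨r, r', a2, a3, a4⟩⟩⟩
    · refine le_trans (sum_le_sum (g := fun _ => W * N ^ 21) fun q _ => ?_) (by simp)
      by_cases h : q.1 = q.2
      · rw [filter_false_of_mem (fun p _ hp => hp.1 h)]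
        simp
      · exact le_trans (card_le_card fun p hp => mem_filter.2 ⟨mem_univ _, (mem_filter.1 hp).2.2⟩)
          (count_pairs Cl hCl h)
  · have key : ∀ (rk : Lines M T b → ℕ) (e : Fin N ≃ Lines M T b) (ρ : Fin 11 → Lines M T b),
        (Monotone fun i => rk (e i)) → (StrictMono fun i => rk (ρ i)) →
        StrictMono fun i => e.symm (ρ i) := by
      intro rk e ρ h1 h2 i j hij
      by_contra hc
      have a1 := h1 (not_lt.1 hc)
      have a2 := h2 hij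
      simp only [Equiv.apply_symm_apply] at a1 a2
      omega
    have := hfar (fun r c => B (eR.symm r) (eC.symm c) = true) (fun ρ γ h1 h2 h3 =>
      hB (fun i => eR.symm (ρ i), fun i => eC.symm (γ i)) ⟨key _ _ _ hR h1, key _ _ _ hC h2,
        fun i j => by
          have := h3 i j
          rw [Bool.eq_iff_iff, decide_eq_true_eq]
          exact this⟩)
    refine this.trans_le (Nat.mul_le_mul_left _ ?_)
    refine card_le_card_of_injOn (fun p => (eR.symm p.1, eC.symm p.2)) (fun p hp => ?_) ?_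
    · simp only [coe_filter, mem_univ, true_and, Set.mem_ofPred_eq, Equiv.apply_symm_apply] at hp ⊢
      intro h
      apply hp
      rw [← h]; simp
    · intro p _ q _ h
      simp only [Prod.mk.injEq, EmbeddingLike.apply_eq_iff_eq] at h
      exact Prod.ext h.1 h.2

theorem main (G' : ℕ) : ∃ (N Λ n0 : ℕ) (A : Fin N → Fin N → Bool), N = Λ * n0 ∧ 1 ≤ Λ ∧
    Λ ≤ (800 * (G' + 1)) ^ 25 ∧ 2 ^ (G' + 1) ≤ n0 ∧
      (univ.filter fun p : (Fin 11 → Fin N) × (Fin 11 → Fin N) => StrictMono p.1 ∧ StrictMono p.2 ∧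
        ∀ i j, A (p.1 i) (p.2 j) = decide (i ≠ j)).card ≤ 121 * (Λ * N ^ 21) ∧
      ∀ B : Fin N → Fin N → Bool,
        (∀ p : (Fin 11 → Fin N) × (Fin 11 → Fin N), ¬ (StrictMono p.1 ∧ StrictMono p.2 ∧
          ∀ i j, B (p.1 i) (p.2 j) = decide (i ≠ j))) →
        n0 * n0 < 10 ^ 6 * (univ.filter fun p : Fin N × Fin N => A p.1 p.2 ≠ B p.1 p.2).card := by
  obtain ⟨G, hG⟩ : ∃ G, G = G' + 1 := ⟨_, rfl⟩
  obtain ⟨K, hK⟩ : ∃ K, K = 256 * G := ⟨_, rfl⟩
  obtain ⟨n0, hn⟩ : ∃ n0, n0 = K * 2 ^ G' := ⟨_, rfl⟩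
  obtain ⟨Z, hZ⟩ : ∃ Z, Z = 100 * (4 * G + 4) := ⟨_, rfl⟩
  obtain ⟨t, ht⟩ : ∃ t, t = Fintype.card (Ty K G Z) := ⟨_, rfl⟩
  obtain ⟨u, hu⟩ : ∃ u, u = Fintype.card (Rest K G Z) := ⟨_, rfl⟩
  have htu : t = u * (K + 1) := by rw [ht, hu, Fintype.card_prod, Fintype.card_fin]
  have hu' : u = Z * (2 * ((G + 1) * ((G + 1) * (K + 1)))) := by
    simp only [hu, Fintype.card_prod, Fintype.card_fin, Fintype.card_bool]
  have hu0 : 1 ≤ u := by rw [hu', hZ]; exact Nat.succ_le_of_lt (by positivity)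
  have ht0 : u ≤ t := by rw [htu]; exact Nat.le_mul_of_pos_right _ (Nat.succ_pos K)
  have ht1 : t ≤ t ^ 4 := Nat.le_self_pow (by norm_num) t
  have hN : Fintype.card (Lines (Mn K G n0 Z) (Ty K G Z) n0) = (30 * t ^ 4 + u) * n0 := by
    rw [Fintype.card_sum, Fintype.card_prod (Fin n0), ← hu, Fintype.card_prod (Om _),
      Fintype.card_prod (Fin 3), Fintype.card_prod (Ty K G Z), Fintype.card_prod (Ty K G Z),
      Fintype.card_prod (Ty K G Z), ← ht]
    simp only [Fintype.card_prod, Fintype.card_fin]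
    ring
  obtain ⟨A, h1, h2⟩ := transport (dat K G n0 Z) n0 (30 * t ^ 4 + u) (n0 * n0) _ hN
    (fun r => (close_card r).trans (by omega)) (far_from_free hG hK hn hZ)
  refine ⟨_, _, n0, A, rfl, by omega, ?_, ?_, h1, h2⟩
  · rw [← hG]
    have a1 : t ≤ (800 * G) ^ 6 := by
      rw [htu, hu']
      calc Z * (2 * ((G + 1) * ((G + 1) * (K + 1)))) * (K + 1)
          ≤ (800 * G) * ((800 * G) * ((800 * G) * ((800 * G) * (800 * G)))) * (800 * G) := by
            gcongr <;> omega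
        _ = _ := by ring
    have a2 : t ^ 4 ≤ ((800 * G) ^ 6) ^ 4 := Nat.pow_le_pow_left a1 4
    calc 30 * t ^ 4 + u ≤ 31 * t ^ 4 := by omega
      _ ≤ (800 * G) * ((800 * G) ^ 6) ^ 4 := Nat.mul_le_mul (by omega) a2
      _ = _ := by ring
  · rw [hn, pow_succ, mul_comm]
    exact Nat.mul_le_mul_right _ (by omega)

lemma numeric_aux {c C L n0 g t : ℝ} {k m : ℕ} (hc : 0 < c) (hk : C ≤ k) (hLR : 1 ≤ L)
    (hn0R : 0 < n0) (ht : t = 800 * g) (hg : 1 ≤ g) (a2 : L ≤ t ^ 25) (hm : m = 53 * k)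
    (y : ℝ) (hy : 0 < y) (b1 : y ≤ n0) (hG1 : g ^ m / y < c / (121 * 800 ^ m)) :
    (1 : ℝ) < 10 ^ 6 * L ^ 2 ∧ 121 < c * (1 / (10 ^ 6 * L ^ 2) : ℝ) ^ C * n0 := by
  have hone : (1 : ℝ) < 10 ^ 6 * L ^ 2 := by
    have := one_le_pow₀ (n := 2) hLR
    linarith
  have hpos : (0 : ℝ) < 10 ^ 6 * L ^ 2 := lt_trans one_pos hone
  refine ⟨hone, ?_⟩
  have a1 : (1 / (10 ^ 6 * L ^ 2) : ℝ) ^ (k : ℝ) ≤ (1 / (10 ^ 6 * L ^ 2) : ℝ) ^ C :=
    Real.rpow_le_rpow_of_exponent_ge (one_div_pos.mpr hpos)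
      (by rw [div_le_one hpos]; exact hone.le) hk
  rw [Real.rpow_natCast] at a1
  have t1 : (800 : ℝ) ≤ t := by rw [ht]; linarith
  have t0 : (0 : ℝ) < t := by linarith
  have a3 : (10 ^ 6 * L ^ 2 : ℝ) ≤ t ^ 53 := by
    have e1 : (10 : ℝ) ^ 6 ≤ t ^ 3 :=
      le_trans (by norm_num) (pow_le_pow_left₀ (by norm_num) t1 3)
    have e2 : L ^ 2 ≤ (t ^ 25) ^ 2 := pow_le_pow_left₀ (by linarith) a2 2
    calc (10 ^ 6 * L ^ 2 : ℝ) ≤ t ^ 3 * (t ^ 25) ^ 2 :=
          mul_le_mul e1 e2 (sq_nonneg _) (pow_pos t0 3).le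
      _ = _ := by ring
  have a4 : 1 / t ^ m ≤ (1 / (10 ^ 6 * L ^ 2) : ℝ) ^ k := by
    rw [hm, pow_mul, ← one_div_pow]
    exact pow_le_pow_left₀ (one_div_pos.mpr (pow_pos t0 53)).le
      (one_div_le_one_div_of_le hpos a3) k
  have h800 : (0 : ℝ) < 121 * 800 ^ m := mul_pos (by norm_num) (pow_pos (by norm_num) m)
  have a5 : 121 * t ^ m < c * n0 := by
    rw [div_lt_div_iff₀ hy h800] at hG1
    rw [ht, mul_pow]
    have := mul_le_mul_of_nonneg_left b1 hc.le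
    linarith
  have a6 : 121 < c * (1 / t ^ m) * n0 := by
    rw [mul_one_div, div_mul_eq_mul_div, lt_div_iff₀ (pow_pos t0 m)]
    exact a5
  have a7 : c * (1 / t ^ m) * n0 ≤ c * (1 / (10 ^ 6 * L ^ 2) : ℝ) ^ C * n0 :=
    mul_le_mul_of_nonneg_right (mul_le_mul_of_nonneg_left (a4.trans a1) hc.le) hn0R.le
  exact a6.trans_le a7

lemma numeric {c C : ℝ} (hc : 0 < c) : ∃ G' : ℕ, ∀ L n0 : ℕ, 1 ≤ L → L ≤ (800 * (G' + 1)) ^ 25 →
    2 ^ (G' + 1) ≤ n0 → 0 < n0 ∧ (1 : ℝ) < 10 ^ 6 * L ^ 2 ∧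
      121 < c * (1 / (10 ^ 6 * L ^ 2) : ℝ) ^ C * n0 := by
  obtain ⟨k, hk⟩ := exists_nat_ge C
  obtain ⟨m, hm⟩ : ∃ m, m = 53 * k := ⟨_, rfl⟩
  have ht := tendsto_pow_const_div_const_pow_of_one_lt m (show (1 : ℝ) < 2 by norm_num)
  obtain ⟨G, hG1, hG2⟩ := ((ht.eventually (gt_mem_nhds
    (show (0 : ℝ) < c / (121 * 800 ^ m) by positivity))).and
      (Filter.eventually_ge_atTop 1)).exists
  obtain ⟨G', rfl⟩ : ∃ G', G = G' + 1 := ⟨G - 1, by omega⟩
  refine ⟨G', fun L n0 hL1 hL2 hn0 => ?_⟩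
  have hn0' : 0 < n0 := lt_of_lt_of_le (Nat.two_pow_pos _) hn0
  refine ⟨hn0', ?_⟩
  exact numeric_aux (g := ((G' + 1 : ℕ) : ℝ)) hc hk (by exact_mod_cast hL1)
    (by exact_mod_cast hn0') rfl (by exact_mod_cast hG2) (by exact_mod_cast hL2) hm
    (2 ^ (G' + 1)) (pow_pos two_pos _) (by exact_mod_cast hn0) hG1

end Vale.Agent.P037
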