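import Vale.Agent.P037.Rigid

namespace Vale.Agent.P037

open Finset Sum Classical

variable {M T : Type} [Fintype M] [Fintype T] (d : Dat M T) {b : ℕ}
  (B : Lines M T b → Lines M T b → Prop)

/-- number of changed entries -/
noncomputable def dif : ℕ :=
  (univ.filter fun p : Lines M T b × Lines M T b => ¬ (B p.1 p.2 ↔ d.A p.1 p.2)).card

/-- a repaired matrix -/
structure Rep : Prop where
  pos : 0 < b
  small : 200 * dif d B ≤ b * b
  free : ∀ ρ γ : Fin 11 → Lines M T b, (StrictMono fun i => d.rkR (ρ i)) →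
    (StrictMono fun i => d.rkC (γ i)) → ¬ ∀ i j, B (ρ i) (γ j) ↔ i ≠ j

def goodR (r : Lines M T b) : Prop := 200 * (univ.filter fun c => ¬ (B r c ↔ d.A r c)).card ≤ b

def goodC (c : Lines M T b) : Prop := 200 * (univ.filter fun r => ¬ (B r c ↔ d.A r c)).card ≤ b

/-- the entry has the required value for most choices of helper lines -/
def Ok (f g : Fin b → Lines M T b) (v : Prop) : Prop :=
  200 * (univ.filter fun p : Fin b × Fin b => ¬ (B (f p.1) (g p.2) ↔ v)).card ≤ b * b

lemma badR : b * (univ.filter fun r => ¬ goodR d B r).card ≤ 200 * dif d B := by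
  have e : dif d B = ∑ r, (univ.filter fun c => ¬ (B r c ↔ d.A r c)).card := by
    simp only [dif, card_filter, Fintype.sum_prod_type]
  rw [e, mul_sum, mul_comm, card_eq_sum_ones, sum_mul]
  refine le_trans (sum_le_sum fun r hr => ?_) (sum_le_sum_of_subset (filter_subset _ _))
  have := (mem_filter.1 hr).2
  unfold goodR at this
  omega

lemma badC : b * (univ.filter fun r => ¬ goodC d B r).card ≤ 200 * dif d B := by
  have e : dif d B = ∑ c, (univ.filter fun r => ¬ (B r c ↔ d.A r c)).card := by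
    simp only [dif, card_filter, Fintype.sum_prod_type_right]
  rw [e, mul_sum, mul_comm, card_eq_sum_ones, sum_mul]
  refine le_trans (sum_le_sum fun r hr => ?_) (sum_le_sum_of_subset (filter_subset _ _))
  have := (mem_filter.1 hr).2
  unfold goodC at this
  omega

variable {d B}

lemma ok_hh (h : Rep d B) {f g : Fin b → Lines M T b} {v : Prop} (hf : f.Injective)
    (hg : g.Injective) (hv : ∀ s t, d.A (f s) (g t) ↔ v) : Ok B f g v := by
  refine le_trans (Nat.mul_le_mul_left _ ?_) h.small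
  refine card_le_card_of_injOn (fun p => (f p.1, g p.2)) (fun p hp => ?_) ?_
  · simp only [coe_filter, mem_univ, true_and, Set.mem_ofPred_eq] at hp ⊢
    rwa [hv]
  · intro p _ q _ h
    simp only [Prod.mk.injEq] at h
    exact Prod.ext (hf h.1) (hg h.2)

lemma ok_mh {r : Lines M T b} (hr : goodR d B r) {g : Fin b → Lines M T b} {v : Prop}
    (hg : g.Injective) (hv : ∀ t, d.A r (g t) ↔ v) : Ok B (fun _ => r) g v := by
  have : (univ.filter fun p : Fin b × Fin b => ¬ (B r (g p.2) ↔ v)).card ≤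
      ((univ : Finset (Fin b)) ×ˢ (univ.filter fun c => ¬ (B r c ↔ d.A r c))).card := by
    refine card_le_card_of_injOn (fun p => (p.1, g p.2)) (fun p hp => ?_) ?_
    · simp only [coe_filter, mem_univ, true_and, Set.mem_ofPred_eq, coe_product, coe_univ,
        Set.mem_prod, Set.mem_univ] at hp ⊢
      rwa [hv]
    · intro p _ q _ h
      simp only [Prod.mk.injEq] at h
      exact Prod.ext h.1 (hg h.2)
  rw [card_product, card_univ, Fintype.card_fin] at this
  unfold goodR at hr
  unfold Ok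
  nlinarith

lemma ok_hm {c : Lines M T b} (hc : goodC d B c) {f : Fin b → Lines M T b} {v : Prop}
    (hf : f.Injective) (hv : ∀ t, d.A (f t) c ↔ v) : Ok B f (fun _ => c) v := by
  have : (univ.filter fun p : Fin b × Fin b => ¬ (B (f p.1) c ↔ v)).card ≤
      ((univ : Finset (Fin b)) ×ˢ (univ.filter fun r => ¬ (B r c ↔ d.A r c))).card := by
    refine card_le_card_of_injOn (fun p => (p.2, f p.1)) (fun p hp => ?_) ?_
    · simp only [coe_filter, mem_univ, true_and, Set.mem_ofPred_eq, coe_product, coe_univ,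
        Set.mem_prod, Set.mem_univ] at hp ⊢
      rwa [hv]
    · intro p _ q _ h
      simp only [Prod.mk.injEq] at h
      exact Prod.ext (hf h.2) h.1
  rw [card_product, card_univ, Fintype.card_fin] at this
  unfold goodC at hc
  unfold Ok
  nlinarith

omit [Fintype M] [Fintype T] in
lemma ok_mm {r c : Lines M T b} {v : Prop} (h : B r c ↔ v) : Ok B (fun _ => r) (fun _ => c) v := by
  simp [Ok, h]

lemma no_copy (h : Rep d B) (ρ γ : Fin 11 → Fin b → Lines M T b)
    (hρ : ∀ s, StrictMono fun i => d.rkR (ρ i s)) (hγ : ∀ s, StrictMono fun i => d.rkC (γ i s))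
    (hok : ∀ i j, Ok B (ρ i) (γ j) (i ≠ j)) : False := by
  have hsub : (univ : Finset (Fin b × Fin b)) ⊆ (univ : Finset (Fin 11 × Fin 11)).biUnion
      fun q => univ.filter fun p : Fin b × Fin b => ¬ (B (ρ q.1 p.1) (γ q.2 p.2) ↔ q.1 ≠ q.2) := by
    intro p _
    have := h.free (fun i => ρ i p.1) (fun i => γ i p.2) (hρ _) (hγ _)
    obtain ⟨i, hi⟩ := not_forall.1 this
    obtain ⟨j, hj⟩ := not_forall.1 hi
    exact mem_biUnion.2 ⟨(i, j), mem_univ _, mem_filter.2 ⟨mem_univ _, hj⟩⟩
  have h1 := Nat.mul_le_mul_left 200 ((card_le_card hsub).trans card_biUnion_le)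
  rw [mul_sum] at h1
  have h2 := h1.trans (sum_le_sum (s := (univ : Finset (Fin 11 × Fin 11))) (g := fun _ => b * b)
    fun q _ => by
      have := hok q.1 q.2
      unfold Ok at this
      exact le_trans (le_of_eq (by congr)) this)
  simp only [card_univ, Fintype.card_prod, Fintype.card_fin, sum_const, smul_eq_mul] at h2
  have := Nat.mul_pos h.pos h.pos
  omega

/-- helper line family -/
def hl (ω : Om T) (a : Fin 10) : Fin b → Lines M T b := fun s => inl (ω, a, s)

omit [Fintype M] [Fintype T] in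
lemma hl_inj (ω : Om T) (a : Fin 10) : (hl (M := M) (b := b) ω a).Injective := by
  intro s t h
  simpa [hl] using h

lemma use_rule (h : Rep d B) (ω : Om T) (hact : d.act ω) (r c' : M)
    (hr : goodR d B (inr r)) (hc : goodC d B (inr c'))
    (tr : d.ty r = ω.2.1 ∨ d.ty r = ω.2.2.1) (tc : d.ty c' = ω.2.2.2.1 ∨ d.ty c' = ω.2.2.2.2)
    (R2 C1 : Fin b → Lines M T b) (k1 : ∀ s, 10 + d.fp r < d.rkR (R2 s))
    (k2 : ∀ s, 8 < d.rkC (C1 s) ∧ d.rkC (C1 s) < 10 + d.fp c')
    (o1 : ∀ a, a ≠ 9 → Ok B (hl ω a) C1 True) (o2 : ∀ a, a ≠ 9 → Ok B R2 (hl ω a) True)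
    (o3 : Ok B (fun _ => inr r) C1 False) (o4 : Ok B R2 C1 True)
    (o5 : B (inr r) (inr c')) (o6 : Ok B R2 (fun _ => inr c') False) : False := by
  let fr : Fin 11 → Fin 10 := fun i => ⟨min i 9, by omega⟩
  have hfr : ∀ i : Fin 11, i.1 < 9 → fr i ≠ 9 ∧ (fr i).1 = i := by
    intro i hi
    simp only [fr, ne_eq, Fin.ext_iff]
    constructor
    · change ¬ min i.1 9 = 9
      omega
    · omega
  refine no_copy h (fun i => if i.1 < 9 then hl ω (fr i) else if i.1 = 9 then fun _ => inr r else R2)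
    (fun i => if i.1 < 9 then hl ω (fr i) else if i.1 = 9 then C1 else fun _ => inr c')
    (fun s => ?_) (fun s => ?_) (fun i j => ?_)
  · intro i j hij
    have := k1 s
    have e : ∀ i : Fin 11, i.1 < 9 → d.rkR (hl (M := M) ω (fr i) s) = i := fun i hi => by
      simp only [hl, Dat.rkR, (hfr i hi).1, if_false, (hfr i hi).2]
    have e' : d.rkR (b := b) (inr r) = 10 + d.fp r := rfl
    have hi := e i
    have hj := e j
    have hij' : i.1 < j.1 := hij
    have := j.2
    simp only
    split_ifs <;> beta_reduce <;> omega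
  · intro i j hij
    have := k2 s
    have e : ∀ i : Fin 11, i.1 < 9 → d.rkC (hl (M := M) ω (fr i) s) = i := fun i hi => by
      simp only [hl, Dat.rkC, (hfr i hi).2]
    have e' : d.rkC (b := b) (inr c') = 10 + d.fp c' := rfl
    have hi := e i
    have hj := e j
    have hij' : i.1 < j.1 := hij
    have := j.2
    simp only
    split_ifs <;> beta_reduce <;> omega
  · have hi := hfr i
    have hj := hfr j
    have hi2 := i.2
    have hj2 := j.2
    have hT : i.1 ≠ j.1 → (i ≠ j) = True := fun h => eq_true fun e => h (congrArg _ e)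
    have hF : i.1 = j.1 → (i ≠ j) = False := fun h => eq_false fun e => e (Fin.ext h)
    split_ifs with h1 h2 h3 h4 h5 h6 h7 h8
    · refine ok_hh h (hl_inj _ _) (hl_inj _ _) fun s t => ?_
      simp only [hl, Dat.A, true_and, hact, (hi h1).1, (hj h2).1, false_imp_iff, and_true, ne_eq,
        Fin.ext_iff (a := fr i), (hi h1).2, (hj h2).2, Fin.ext_iff (a := i)]
    · rw [hT (by omega)]; exact o1 _ (hi h1).1
    · rw [hT (by omega)]
      exact ok_hm hc (hl_inj _ _) fun t => by simp [hl, Dat.A, hact, (hi h1).1, tc]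
    · rw [hT (by omega)]
      exact ok_mh hr (hl_inj _ _) fun t => by simp [hl, Dat.A, hact, (hj h5).1, tr]
    · rw [hF (by omega)]; exact o3
    · rw [hT (by omega)]; exact ok_mm (by simp [o5])
    · rw [hT (by omega)]; exact o2 _ (hj h7).1
    · rw [hT (by omega)]; exact o4
    · rw [hF (by omega)]; exact o6

lemma ruleD (h : Rep d B) {r r' c c' : M} (hr : goodR d B (inr r)) (hr' : goodR d B (inr r'))
    (hc : goodC d B (inr c)) (hc' : goodC d B (inr c')) (f1 : d.fl (d.ty r) = true)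
    (f2 : d.fl (d.ty r') = true) (l1 : d.fp r < d.fp r') (l2 : d.fp c < d.fp c')
    (e1 : ¬ B (inr r) (inr c)) (e2 : B (inr r') (inr c)) (e3 : ¬ B (inr r') (inr c')) :
    ¬ B (inr r) (inr c') := by
  intro e4
  have hact : d.act (0, d.ty r, d.ty r', d.ty c, d.ty c') :=
    ⟨fun _ => ⟨f1, f2⟩, fun h => absurd h (by simp), fun h => absurd h (by simp)⟩
  exact use_rule h _ hact r c' hr hc' (Or.inl rfl) (Or.inr rfl) (fun _ => inr r') (fun _ => inr c)
    (fun s => by simp only [Dat.rkR]; omega) (fun s => by simp only [Dat.rkC]; omega)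
    (fun a ha => ok_hm hc (hl_inj _ _) fun t => by simp [hl, Dat.A, hact, ha])
    (fun a ha => ok_mh hr' (hl_inj _ _) fun t => by simp [hl, Dat.A, hact, ha])
    (ok_mm (by simp [e1])) (ok_mm (by simp [e2])) e4 (ok_mm (by simp [e3]))

lemma rule1 (h : Rep d B) {r r' c : M} (hr : goodR d B (inr r)) (hr' : goodR d B (inr r'))
    (hc : goodC d B (inr c)) (hne : d.ty r ≠ d.ty r') (l1 : d.fp r < d.fp r')
    (hv : ∀ s s' e, d.ty s = d.ty r → d.ty s' = d.ty r' → d.ty e = d.ty c → d.far s s' →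
      d.A0 s e → d.A0 s' e) (e3 : ¬ B (inr r') (inr c)) : ¬ B (inr r) (inr c) := by
  intro e4
  have hact : d.act (1, d.ty r, d.ty r', d.ty c, d.ty c) :=
    ⟨fun h => absurd h (by simp), fun _ => ⟨rfl, hv⟩, fun h => absurd h (by simp)⟩
  exact use_rule h _ hact r c hr hc (Or.inl rfl) (Or.inr rfl) (fun _ => inr r')
    (hl (1, d.ty r, d.ty r', d.ty c, d.ty c) 9)
    (fun s => by simp only [Dat.rkR]; omega) (fun s => by simp [Dat.rkC, hl]; omega)
    (fun a ha => ok_hh h (hl_inj _ _) (hl_inj _ _) fun s t => by simp [hl, Dat.A, hact, ha])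
    (fun a ha => ok_mh hr' (hl_inj _ _) fun t => by simp [hl, Dat.A, hact, ha])
    (ok_mh hr (hl_inj _ _) fun t => by simp [hl, Dat.A, hne])
    (ok_mh hr' (hl_inj _ _) fun t => by simp [hl, Dat.A, hact]) e4 (ok_mm (by simp [e3]))

lemma rule2 (h : Rep d B) {r c c' : M} (hr : goodR d B (inr r)) (hc : goodC d B (inr c))
    (hc' : goodC d B (inr c')) (hne : d.ty c ≠ d.ty c') (l1 : d.fp c < d.fp c')
    (hv : ∀ s e e', d.ty s = d.ty r → d.ty e = d.ty c → d.ty e' = d.ty c' → d.fp e ≤ d.fp e' →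
      d.A0 s e' → d.A0 s e) (e3 : ¬ B (inr r) (inr c)) : ¬ B (inr r) (inr c') := by
  intro e4
  have hact : d.act (2, d.ty r, d.ty r, d.ty c, d.ty c') :=
    ⟨fun h => absurd h (by simp), fun h => absurd h (by simp), fun _ => ⟨rfl, hv⟩⟩
  exact use_rule h _ hact r c' hr hc' (Or.inl rfl) (Or.inr rfl) (hl (2, d.ty r, d.ty r, d.ty c, d.ty c') 9)
    (fun _ => inr c)
    (fun s => by have := d.fp_lt r; simp [Dat.rkR, hl]; omega)
    (fun s => by simp only [Dat.rkC]; omega)
    (fun a ha => ok_hm hc (hl_inj _ _) fun t => by simp [hl, Dat.A, hact, ha])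
    (fun a ha => ok_hh h (hl_inj _ _) (hl_inj _ _) fun s t => by
      simp [hl, Dat.A, hact, ha, Ne.symm ha])
    (ok_mm (by simp [e3]))
    (ok_hm hc (hl_inj _ _) fun t => by simp [hl, Dat.A, hact]) e4
    (ok_hm hc' (hl_inj _ _) fun t => by simp [hl, Dat.A, hne.symm])

end Vale.Agent.P037
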