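import Vale.Agent.P037.Core
import Vale.Agent.P037.Robust

namespace Vale.Agent.P037

open Finset Sum Classical

abbrev Rest (K G Z : ℕ) := Fin Z × Bool × Fin (G + 1) × Fin (G + 1) × Fin (K + 1)

abbrev Mn (K G n0 Z : ℕ) := Fin n0 × Rest K G Z

abbrev Ty (K G Z : ℕ) := Rest K G Z × Fin (K + 1)

variable {K G n0 Z : ℕ}

def toLn (r : Mn K G n0 Z) : Ln := ⟨r.1, r.2.1, r.2.2.1, r.2.2.2.1, r.2.2.2.2.1, r.2.2.2.2.2⟩

lemma toLn_inj : (toLn (K := K) (G := G) (n0 := n0) (Z := Z)).Injective := by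
  rintro ⟨a1, a2, a3, a4, a5, a6⟩ ⟨b1, b2, b3, b4, b5, b6⟩ h
  simp only [toLn, Ln.mk.injEq] at h
  simp only [Prod.mk.injEq, Fin.ext_iff]
  exact h

def tyM (r : Mn K G n0 Z) : Ty K G Z := (r.2, ⟨res K r.2.2.2.1 r.1, Nat.mod_lt _ (Nat.succ_pos K)⟩)

lemma tyM_eq {r s : Mn K G n0 Z} (h : tyM r = tyM s) : (toLn r).z = (toLn s).z ∧
    (toLn r).fl = (toLn s).fl ∧ (toLn r).h = (toLn s).h ∧ (toLn r).val = (toLn s).val ∧
    res K (toLn s).h (toLn r).x = res K (toLn s).h (toLn s).x := by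
  obtain ⟨a, u⟩ := r
  obtain ⟨b, v⟩ := s
  simp only [tyM, Prod.mk.injEq] at h
  obtain ⟨rfl, h⟩ := h
  exact ⟨rfl, rfl, rfl, rfl, congrArg Fin.val h⟩

lemma fp_le {r s : Mn K G n0 Z} (h : r.1.1 * Z + r.2.1.1 ≤ s.1.1 * Z + s.2.1.1) : r.1.1 ≤ s.1.1 := by
  by_contra hc
  have := slot_facts Z _ _ (not_le.1 hc)
  have := s.2.1.2
  omega

lemma fp_lt_of_lt {r s : Mn K G n0 Z} (h : (toLn r).lt (toLn s)) :
    r.1.1 * Z + r.2.1.1 < s.1.1 * Z + s.2.1.1 := by
  rcases h with h | h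
  · have := slot_facts Z _ _ h
    have := r.2.1.2
    simp only [toLn] at *
    omega
  · simp only [toLn] at h
    rw [h.1]; omega

/-- the concrete main part -/
def dat (K G n0 Z : ℕ) : Dat (Mn K G n0 Z) (Ty K G Z) where
  ty := tyM
  fl := fun t => t.1.2.1
  A0 := fun r c => tr (toLn r) (toLn c)
  fp := fun r => r.1.1 * Z + r.2.1.1
  P := n0 * Z
  far := fun r r' => r.1.1 + K < r'.1.1
  fp_lt := fun r => by
    have := slot_facts Z _ _ r.1.2
    have := r.2.1.2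
    omega
  chain := fun r r' c c' h h1 h2 => by
    have e : (toLn r).fl = (toLn r').fl := h
    simp only [tr, e] at h1 h2 ⊢
    omega
  monoC := fun r c c' h h1 h2 => by
    obtain ⟨-, -, e1, e2, -⟩ := tyM_eq h
    have := rd_mono (toLn c').h (show (toLn c).x ≤ (toLn c').x from fp_le h1)
    simp only [tr, bt, e1, e2] at h2 ⊢
    omega
  monoR := fun r r' c h h1 h2 => by
    obtain ⟨-, e0, e1, e2, -⟩ := tyM_eq h
    have := rd_mono (toLn r').h (show (toLn r).x ≤ (toLn r').x from fp_le h1)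
    simp only [tr, e0, e1, e2] at h2 ⊢
    omega

theorem far_from_free {G' : ℕ} (hG : G = G' + 1) (hK : K = 256 * G) (hn : n0 = K * 2 ^ G')
    (hZ : Z = 100 * (4 * G + 4)) (B : Lines (Mn K G n0 Z) (Ty K G Z) n0 → _ → Prop)
    (free : ∀ ρ γ : Fin 11 → Lines _ _ n0, (StrictMono fun i => (dat K G n0 Z).rkR (ρ i)) →
      (StrictMono fun i => (dat K G n0 Z).rkC (γ i)) → ¬ ∀ i j, B (ρ i) (γ j) ↔ i ≠ j) :
    n0 * n0 < 10 ^ 6 * dif (dat K G n0 Z) B := by
  by_contra hcon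
  have hn0 : 0 < n0 := by rw [hn, hK, hG]; positivity
  set d := dat K G n0 Z with hd
  have hR : Rep d B := ⟨hn0, by omega, free⟩
  let good : ℕ → Prop := fun x => x < n0 ∧ ∀ r : Mn K G n0 Z, r.1.1 = x →
    goodR d B (inr r) ∧ goodC d B (inr r)
  let N : Ln → Ln → Prop := fun r c => ∀ a e : Mn K G n0 Z, toLn a = r → toLn e = c →
    ¬ B (inr a) (inr e)
  have hN : ∀ a e, N (toLn a) (toLn e) ↔ ¬ B (inr a) (inr e) := fun a e =>
    ⟨fun h => h a e rfl rfl, fun h a' e' h1 h2 => by rwa [toLn_inj h1, toLn_inj h2]⟩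
  have hex : ∀ l, gd K G Z good l → ∃ a : Mn K G n0 Z, toLn a = l ∧ goodR d B (inr a) ∧
      goodC d B (inr a) := by
    rintro ⟨x, z, fl, h, g, m⟩ ⟨h1, h2, h3, h4, h5⟩
    exact ⟨(⟨x, h1.1⟩, ⟨z, h2⟩, fl, ⟨h, Nat.lt_succ_of_le h3⟩, ⟨g, Nat.lt_succ_of_le h4⟩,
      ⟨m, Nat.lt_succ_of_le h5⟩), rfl, h1.2 _ rfl⟩
  refine core (good := good) (N := N) hG hK hn hZ ⟨?_, ?_, ?_, ?_, ?_⟩ ?_
  · intro r r' c g1 g2 g3 hne hlt hv h
    obtain ⟨a, rfl, a1, -⟩ := hex r g1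
    obtain ⟨a', rfl, a2, -⟩ := hex r' g2
    obtain ⟨e, rfl, -, a3⟩ := hex c g3
    rw [hN] at h ⊢
    refine rule1 hR a1 a2 a3 (fun h => hne (tyM_eq h).1) (fp_lt_of_lt hlt)
      (fun s s' e' t1 t2 t3 hf hA => ?_) h
    obtain ⟨-, b1, b2, b3, b4⟩ := tyM_eq t1
    obtain ⟨-, c1, c2, c3, c4⟩ := tyM_eq t2
    obtain ⟨-, -, -, d3, -⟩ := tyM_eq t3
    have := hv _ _ hf b4 c4
    change tr _ _ at hA ⊢
    simp only [tr, bt, b1, b2, b3, c1, c2, c3, d3] at hA this ⊢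
    simp only [toLn] at hA this ⊢
    omega
  · intro r c c' g1 g2 g3 hne hlt hv h
    obtain ⟨a, rfl, a1, -⟩ := hex r g1
    obtain ⟨e, rfl, -, a2⟩ := hex c g2
    obtain ⟨e', rfl, -, a3⟩ := hex c' g3
    rw [hN] at h ⊢
    refine rule2 hR a1 a2 a3 (fun h => hne (tyM_eq h).1) (fp_lt_of_lt hlt)
      (fun s f f' t1 t2 t3 hf hA => ?_) h
    obtain ⟨-, b1, -, -, -⟩ := tyM_eq t1
    obtain ⟨-, -, c2, c3, c4⟩ := tyM_eq t2
    obtain ⟨-, -, d2, d3, d4⟩ := tyM_eq t3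
    have := hv _ _ (fp_le hf) c4 d4
    change tr _ _ at hA ⊢
    simp only [tr, bt, b1, c2, c3, d2, d3] at hA this ⊢
    simp only [toLn] at hA this ⊢
    omega
  · intro r r' c c' g1 g2 g3 g4 f1 f2 l1 l2 h1 h2 h3
    obtain ⟨a, rfl, a1, -⟩ := hex r g1
    obtain ⟨a', rfl, a2, -⟩ := hex r' g2
    obtain ⟨e, rfl, -, a3⟩ := hex c g3
    obtain ⟨e', rfl, -, a4⟩ := hex c' g4
    rw [hN] at h1 h2 h3 ⊢
    exact ruleD hR a1 a2 a3 a4 f1 f2 (fp_lt_of_lt l1) (fp_lt_of_lt l2) h1 (not_not.1 h2) h3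
  · intro r g1 s f hf hs
    obtain ⟨a, rfl, a1, -⟩ := hex r g1
    have : Nonempty (Mn K G n0 Z) := ⟨a⟩
    choose! g hg using fun j hj => hex (f j) (hs j hj).1
    refine le_trans (Nat.mul_le_mul_left _ (card_le_card_of_injOn (fun j => inr (g j))
      (fun j hj => ?_) (fun j hj j' hj' h => hf hj hj' ?_))) a1
    · have b := hs j hj
      rw [← (hg j hj).1, hN] at b
      simp only [coe_filter, mem_univ, true_and, Set.mem_ofPred_eq]
      exact fun h => b.2.1 (h.2 b.2.2)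
    · simp only [inr.injEq] at h
      simp only [← (hg j hj).1, ← (hg j' hj').1, h]
  · intro r g1 s f hf hs
    obtain ⟨a, rfl, -, a1⟩ := hex r g1
    have : Nonempty (Mn K G n0 Z) := ⟨a⟩
    choose! g hg using fun j hj => hex (f j) (hs j hj).1
    refine le_trans (Nat.mul_le_mul_left _ (card_le_card_of_injOn (fun j => inr (g j))
      (fun j hj => ?_) (fun j hj j' hj' h => hf hj hj' ?_))) a1
    · have b := hs j hj
      rw [← (hg j hj).1, hN] at b
      simp only [coe_filter, mem_univ, true_and, Set.mem_ofPred_eq]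
      exact fun h => b.2.2 (h.1 (not_not.1 b.2.1))
    · simp only [inr.injEq] at h
      simp only [← (hg j hj).1, ← (hg j' hj').1, h]
  · have h1' := badR d B
    have h2' := badC d B
    let ps : Lines (Mn K G n0 Z) (Ty K G Z) n0 → ℕ := Sum.elim (fun _ => 0) fun r => r.1.1
    have hsub : ((range n0).filter fun w => ¬ good w) ⊆
        (univ.filter fun r => ¬ goodR d B r).image ps ∪ (univ.filter fun r => ¬ goodC d B r).image ps := by
      intro w hw
      simp only [mem_filter, mem_range, good, not_and, not_forall] at hw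
      obtain ⟨r, h1, h2⟩ := hw.2 hw.1
      by_cases h3 : goodR d B (inr r)
      · exact mem_union_right _ (mem_image.2 ⟨inr r, mem_filter.2 ⟨mem_univ _, h2 h3⟩, h1⟩)
      · exact mem_union_left _ (mem_image.2 ⟨inr r, mem_filter.2 ⟨mem_univ _, h3⟩, h1⟩)
    have h3 := (card_le_card hsub).trans ((card_union_le _ _).trans
      (add_le_add card_image_le card_image_le))
    refine Nat.le_of_mul_le_mul_left ?_ hn0
    have h4 := Nat.mul_le_mul_left n0 h3
    rw [mul_add] at h4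
    rw [mul_left_comm]
    omega

lemma close_card (r : Mn K G n0 Z) : (univ.filter fun r' : Mn K G n0 Z =>
    (dat K G n0 Z).fp r ≤ (dat K G n0 Z).fp r' ∧ ¬ (dat K G n0 Z).far r r').card ≤
      Fintype.card (Ty K G Z) := by
  rw [← card_univ]
  refine card_le_card_of_injOn (fun r' => (r'.2, ⟨min (r'.1.1 - r.1.1) K, by omega⟩))
    (fun _ _ => mem_coe.2 (mem_univ _)) fun s hs s' hs' h => ?_
  replace hs := (mem_filter.1 (mem_coe.1 hs)).2
  replace hs' := (mem_filter.1 (mem_coe.1 hs')).2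
  simp only [dat] at hs hs'
  simp only [Prod.mk.injEq, Fin.mk.injEq] at h
  have := fp_le hs.1
  have := fp_le hs'.1
  exact Prod.ext (Fin.ext (by omega)) h.1

end Vale.Agent.P037
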