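import Mathlib

namespace Vale.Agent.P037

open Finset

theorem recursion (Far : ℝ → ℕ → ℕ → ℕ → Prop) (θ : ℕ → ℕ) (nJ K G z0 : ℕ) (hK : 0 < K)
    (hθ : ∀ j j', j ≤ j' → j' < nJ → θ j ≤ θ j')
    (hmono : ∀ τ τ' z z' i j, τ' ≤ τ → z' ≤ z → Far τ z i j → Far τ' z' i j)
    (hbase : ∀ i j, j < nJ → i < θ j → Far K z0 i j)
    (hmid : ∀ g ≤ G, ∀ ia ja je L : ℕ, ja ≤ je → je < nJ → ia < θ ja →
      L = (θ ja - ia) + (je - ja + 1) → L ≤ K * 2 ^ g →
      Far (7 / 8 * L - 12 * 2 ^ g) (z0 - 2) ia je)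
    (hadd : ∀ g ≤ G, ∀ (τ1 τ2 : ℝ) (L1 L2 z i j1 i2 j : ℕ), 2 ≤ z → z ≤ z0 → j1 < j → j < nJ →
      i < θ j1 → θ j1 ≤ i2 → i2 < θ j → τ1 ≤ L1 → τ2 ≤ L2 → L1 + L2 ≤ K * 2 ^ g →
      Far τ1 z i j1 → Far τ2 z i2 j → Far (τ1 + τ2 - 2 * 2 ^ g) (z - 2) i j)
    (hz : 4 * G + 2 ≤ z0) :
    ∀ d ≤ G, ∀ i j0 j L : ℕ, j0 ≤ j → j < nJ → i < θ j0 → L = (θ j - i) + (j - j0 + 1) →
      L ≤ K * 2 ^ d → Far ((7 / 8 - 32 * d / K) * L) (z0 - 2 - 4 * d) i j := by
  classical
  have hKR : (0 : ℝ) < K := by exact_mod_cast hK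
  intro d
  induction d with
  | zero =>
    intro _ i j0 j L h1 h2 h3 hL hLK
    refine hmono _ _ _ _ _ _ ?_ (by omega) (hbase i j h2 (h3.trans_le (hθ _ _ h1 h2)))
    have : (L : ℝ) ≤ K := by exact_mod_cast (by omega : L ≤ K)
    have : (0 : ℝ) ≤ L := Nat.cast_nonneg L
    simp only [Nat.cast_zero, mul_zero, zero_div, sub_zero]
    linarith
  | succ d ih =>
    intro hd i j0 j L h1 h2 h3 hL hLK
    have ih' := ih (by omega)
    set κ : ℝ := 7 / 8 - 32 * d / K with hκ
    have hκ1 : κ ≤ 7 / 8 := by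
      have : (0 : ℝ) ≤ 32 * d / K := by positivity
      linarith
    have hκ2 : (7 / 8 - 32 * ((d + 1 : ℕ) : ℝ) / K) = κ - 32 / K := by
      rw [hκ]; push_cast; ring
    rw [hκ2]
    have hL0 : (0 : ℝ) ≤ L := Nat.cast_nonneg L
    by_cases hsmall : L ≤ K * 2 ^ d
    · refine hmono _ _ _ _ _ _ ?_ (by omega) (ih' i j0 j L h1 h2 h3 hL hsmall)
      have : (0 : ℝ) ≤ 32 / K * L := by positivity
      linarith
    have hθj : i < θ j := h3.trans_le (hθ _ _ h1 h2)
    have hex1 : ∃ y, j0 ≤ y ∧ L ≤ 2 * ((θ y - i) + (y - j0 + 1)) := ⟨j, h1, by omega⟩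
    set ys := Nat.find hex1 with hys
    have hys1 := Nat.find_spec hex1
    rw [← hys] at hys1
    have hys2 : ys ≤ j := Nat.find_min' hex1 ⟨h1, by omega⟩
    have hex2 : ∃ y, j0 ≤ y ∧ θ ys ≤ θ y := ⟨ys, hys1.1, le_rfl⟩
    set ja := Nat.find hex2 with hja
    have hja1 := Nat.find_spec hex2
    rw [← hja] at hja1
    have hja2 : ja ≤ ys := Nat.find_min' hex2 ⟨hys1.1, le_rfl⟩
    have hja3 : θ ja = θ ys := le_antisymm (hθ _ _ hja2 (by omega)) hja1.2
    set je := Nat.findGreatest (fun y => θ y ≤ θ ys) j with hje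
    have hje1 : ys ≤ je := Nat.le_findGreatest hys2 le_rfl
    have hje2 : je ≤ j := Nat.findGreatest_le j
    have hje3 : θ je = θ ys := le_antisymm
      (Nat.findGreatest_spec (P := fun y => θ y ≤ θ ys) hys2 le_rfl) (hθ _ _ hje1 (by omega))
    have hiys : i < θ ys := h3.trans_le (hθ _ _ hys1.1 (by omega))
    have hysj : θ ys ≤ θ j := hθ _ _ hys2 h2
    have hpow : K * 2 ^ (d + 1) = 2 * (K * 2 ^ d) := by ring
    have hs0 : (0 : ℝ) < 2 ^ (d + 1) := by positivity
    have step1 : ∀ L1 : ℕ, L1 = (θ ys - i) + (je - j0 + 1) →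
        Far (κ * L1 - 14 * 2 ^ (d + 1)) (z0 - 2 - 4 * d - 2) i je := by
      intro L1 hL1
      rcases eq_or_lt_of_le hja1.1 with h | h
      · have := hmid (d + 1) hd i ja je L1 (by omega) (by omega) (by omega) (by omega) (by omega)
        refine hmono _ _ _ _ _ _ ?_ (by omega) this
        have : κ * L1 ≤ 7 / 8 * L1 := mul_le_mul_of_nonneg_right hκ1 (Nat.cast_nonneg _)
        linarith
      · have b1 : ¬ (j0 ≤ ja - 1 ∧ θ ys ≤ θ (ja - 1)) := Nat.find_min hex2 (by omega)
        have b2 : ¬ (j0 ≤ ja - 1 ∧ L ≤ 2 * ((θ (ja - 1) - i) + (ja - 1 - j0 + 1))) :=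
          Nat.find_min hex1 (by omega)
        have b3 : i < θ (ja - 1) := h3.trans_le (hθ _ _ (by omega) (by omega))
        obtain ⟨La, hLa⟩ : ∃ La : ℕ, La = (θ (ja - 1) - i) + (ja - 1 - j0 + 1) := ⟨_, rfl⟩
        obtain ⟨Lm, hLm⟩ : ∃ Lm : ℕ, Lm = (θ ja - θ (ja - 1)) + (je - ja + 1) := ⟨_, rfl⟩
        have c1 := ih' i j0 (ja - 1) La (by omega) (by omega) h3 hLa (by omega)
        have c2 := hmid (d + 1) hd (θ (ja - 1)) ja je Lm (by omega) (by omega) (by omega) hLm
          (by omega)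
        have c3 := hadd (d + 1) hd _ _ La Lm (z0 - 2 - 4 * d) i (ja - 1) (θ (ja - 1)) je
          (by omega) (by omega) (by omega) (by omega) b3 le_rfl (by omega)
          (mul_le_of_le_one_left (Nat.cast_nonneg _) (by linarith))
          (by have : (0 : ℝ) ≤ Lm := Nat.cast_nonneg _
              linarith) (by omega) c1 (hmono _ _ _ _ _ _ le_rfl (by omega) c2)
        refine hmono _ _ _ _ _ _ ?_ le_rfl c3
        have e : (L1 : ℝ) = La + Lm := by exact_mod_cast (by omega : L1 = La + Lm)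
        have : κ * Lm ≤ 7 / 8 * Lm := mul_le_mul_of_nonneg_right hκ1 (Nat.cast_nonneg _)
        rw [e]; linarith
    have hfin : (κ - 32 / K) * L ≤ κ * L - 16 * 2 ^ (d + 1) := by
      have a1 : (K : ℝ) * 2 ^ d ≤ L := by exact_mod_cast (by omega : K * 2 ^ d ≤ L)
      have a2 : (16 : ℝ) * 2 ^ (d + 1) ≤ 32 / K * L := by
        rw [div_mul_eq_mul_div, le_div_iff₀ hKR, pow_succ]; linarith
      linarith
    rcases eq_or_lt_of_le hje2 with h | h
    · have := step1 L (by rw [hL, ← hje3, h])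
      rw [h] at this
      exact hmono _ _ _ _ _ _ (by linarith) (by omega) this
    · have b1 : ¬ θ (je + 1) ≤ θ ys :=
        Nat.findGreatest_is_greatest (P := fun y => θ y ≤ θ ys) (n := j) (by omega) (by omega)
      have b2 : θ (je + 1) ≤ θ j := hθ _ _ (by omega) h2
      obtain ⟨L1, hL1⟩ : ∃ L1 : ℕ, L1 = (θ ys - i) + (je - j0 + 1) := ⟨_, rfl⟩
      obtain ⟨L2, hL2⟩ : ∃ L2 : ℕ, L2 = (θ j - θ ys) + (j - (je + 1) + 1) := ⟨_, rfl⟩
      have c1 := step1 L1 hL1
      have c2 := ih' (θ ys) (je + 1) j L2 (by omega) h2 (by omega) hL2 (by omega)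
      have c3 := hadd (d + 1) hd _ _ L1 L2 (z0 - 2 - 4 * d - 2) i je (θ ys) j
        (by omega) (by omega) h h2 (by omega) (by omega) (by omega)
        (by have : κ * L1 ≤ L1 := mul_le_of_le_one_left (Nat.cast_nonneg _) (by linarith)
            linarith)
        (mul_le_of_le_one_left (Nat.cast_nonneg _) (by linarith)) (by omega) c1
        (hmono _ _ _ _ _ _ le_rfl (by omega) c2)
      refine hmono _ _ _ _ _ _ ?_ (by omega) c3
      have e : (L : ℝ) = L1 + L2 := by exact_mod_cast (by omega : L = L1 + L2)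
      rw [e] at hfin ⊢; linarith

/-- positions all of whose forward windows contain few bad positions -/
def VG (good : ℕ → Prop) [DecidablePred good] (n0 x : ℕ) : Prop :=
  x < n0 ∧ ∀ l, x + l ≤ n0 → 16 * ((Ico x (x + l)).filter fun w => ¬ good w).card ≤ l

lemma VG.good {good : ℕ → Prop} [DecidablePred good] {n0 x : ℕ} (h : VG good n0 x) : good x := by
  by_contra hg
  have := h.2 1 h.1
  rw [Nat.Ico_succ_singleton, filter_singleton, if_pos hg] at this
  simp at this

open Classical in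
lemma card_notVG (good : ℕ → Prop) [DecidablePred good] (n0 : ℕ) :
    ∀ k x, x + k = n0 → ((Ico x n0).filter fun w => ¬ VG good n0 w).card ≤
      16 * ((Ico x n0).filter fun w => ¬ good w).card := by
  intro k
  induction k using Nat.strong_induction_on with
  | _ k ih =>
    intro x hx
    rcases Nat.eq_zero_or_pos k with h0 | h0
    · have : x = n0 := by omega
      subst this; simp
    by_cases hv : VG good n0 x
    · have h1 := ih (k - 1) (by omega) (x + 1) (by omega)
      have h2 : ((Ico x n0).filter fun w => ¬ VG good n0 w) ⊆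
          (Ico (x + 1) n0).filter fun w => ¬ VG good n0 w := by
        intro w hw
        simp only [mem_filter, mem_Ico] at hw ⊢
        refine ⟨⟨?_, hw.1.2⟩, hw.2⟩
        rcases eq_or_lt_of_le hw.1.1 with h | h
        · exact absurd (h ▸ hv) hw.2
        · omega
      have h3 : ((Ico (x + 1) n0).filter fun w => ¬ good w) ⊆ (Ico x n0).filter fun w => ¬ good w :=
        filter_subset_filter _ (Ico_subset_Ico (by omega) le_rfl)
      have := card_le_card h2
      have := card_le_card h3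
      omega
    · have hx' : x < n0 := by omega
      simp only [VG, hx', true_and, not_forall, not_le] at hv
      obtain ⟨l, hl1, hl2⟩ := hv
      have hl0 : 0 < l := by
        rcases Nat.eq_zero_or_pos l with h | h
        · subst h; simp at hl2
        · exact h
      have h1 := ih (k - l) (by omega) (x + l) (by omega)
      have e : Ico x n0 = Ico x (x + l) ∪ Ico (x + l) n0 := (Ico_union_Ico_eq_Ico (by omega) hl1).symm
      have hd : Disjoint (Ico x (x + l)) (Ico (x + l) n0) := Ico_disjoint_Ico_consecutive _ _ _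
      rw [e, filter_union, filter_union, card_union_of_disjoint (disjoint_filter_filter hd),
        card_union_of_disjoint (disjoint_filter_filter hd)]
      have h2 := card_filter_le (Ico x (x + l)) (fun w => ¬ VG good n0 w)
      rw [Nat.card_Ico] at h2
      omega

lemma pair {good : ℕ → Prop} [DecidablePred good] {n0 x : ℕ} (h : VG good n0 x) (l s : ℕ)
    (hs : 0 < s) (hl : x + l ≤ n0) :
    ∃ m : ℕ, 7 * l ≤ 8 * (m * s) + 8 * s + 16 ∧ m * s ≤ l ∧
      (m = 0 ∨ ∃ w, x < w ∧ w + m * s < x + l ∧ good w ∧ good (w + m * s)) := by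
  have hb := h.2 l hl
  refine ⟨(7 * l - 16) / (8 * s), ?_, ?_, ?_⟩
  · have := Nat.lt_div_mul_add (a := 7 * l - 16) (show 0 < 8 * s by omega)
    have e : (7 * l - 16) / (8 * s) * (8 * s) = 8 * ((7 * l - 16) / (8 * s) * s) := by ring
    omega
  · have := Nat.div_mul_le_self (7 * l - 16) (8 * s)
    have e : (7 * l - 16) / (8 * s) * (8 * s) = 8 * ((7 * l - 16) / (8 * s) * s) := by ring
    omega
  · set m := (7 * l - 16) / (8 * s) with hm
    have h1 := Nat.div_mul_le_self (7 * l - 16) (8 * s)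
    have e : m * (8 * s) = 8 * (m * s) := by ring
    rw [← hm, e] at h1
    rcases Nat.eq_zero_or_pos m with h0 | h0
    · exact Or.inl h0
    right
    have hms : 0 < m * s := Nat.mul_pos h0 hs
    generalize m * s = t at *
    by_contra hcon
    push Not at hcon
    set Bd := (Ico x (x + l)).filter fun w => ¬ good w with hBd
    have hsub : Ico (x + 1) (x + l - t) ⊆ Bd ∪ Bd.image (fun w => w - t) := by
      intro w hw
      rw [mem_Ico] at hw
      by_cases hg : good w
      · have := hcon w (by omega) (by omega) hg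
        refine mem_union_right _ (mem_image.2 ⟨w + t, ?_, by omega⟩)
        simp only [hBd, mem_filter, mem_Ico]
        exact ⟨⟨by omega, by omega⟩, this⟩
      · refine mem_union_left _ ?_
        simp only [hBd, mem_filter, mem_Ico]
        exact ⟨⟨by omega, by omega⟩, hg⟩
    have a1 := card_le_card hsub
    have a2 := card_union_le Bd (Bd.image (fun w => w - t))
    have a3 := card_image_le (s := Bd) (f := fun w => w - t)
    rw [Nat.card_Ico] at a1
    omega

lemma enum (I : Finset ℕ) : ∃ p : ℕ → ℕ, (∀ i < I.card, p i ∈ I) ∧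
    ∀ i k, i + k < I.card → p i + k ≤ p (i + k) := by
  refine ⟨fun i => if h : i < I.card then I.orderEmbOfFin rfl ⟨i, h⟩ else 0, fun i hi => ?_, ?_⟩
  · simp only [hi, dif_pos]; exact orderEmbOfFin_mem _ _ _
  · intro i k
    induction k with
    | zero => intro _; simp
    | succ k ih =>
      intro h
      have h1 := ih (by omega)
      have h2 : I.orderEmbOfFin rfl ⟨i + k, by omega⟩ < I.orderEmbOfFin rfl ⟨i + (k + 1), h⟩ :=
        (I.orderEmbOfFin rfl).strictMono (by simp [Fin.lt_def])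
      simp only [show i + k < I.card by omega, h, dif_pos] at h1 ⊢
      omega

lemma exists_theta (ν : ℕ → ℕ → Prop) (nI nJ : ℕ)
    (h1 : ∀ i i' j, i ≤ i' → i' < nI → j < nJ → ν i' j → ν i j)
    (h2 : ∀ i j j', j ≤ j' → i < nI → j' < nJ → ν i j → ν i j') :
    ∃ θ : ℕ → ℕ, (∀ j, θ j ≤ nI) ∧ (∀ i < nI, ∀ j < nJ, ν i j ↔ i < θ j) ∧
      ∀ j j', j ≤ j' → j' < nJ → θ j ≤ θ j' := by
  classical
  have hex : ∀ j, ∃ i, i = nI ∨ ¬ ν i j := fun j => ⟨nI, Or.inl rfl⟩
  have a1 : ∀ j, Nat.find (hex j) ≤ nI := fun j => Nat.find_min' _ (Or.inl rfl)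
  have a2 : ∀ i < nI, ∀ j < nJ, ν i j ↔ i < Nat.find (hex j) := by
    intro i hi j hj
    constructor
    · intro h
      by_contra hc
      rcases Nat.find_spec (hex j) with h' | h'
      · omega
      · exact h' (h1 _ i j (by omega) hi hj h)
    · intro h
      have := Nat.find_min (hex j) h
      push Not at this
      exact this.2
  refine ⟨fun j => Nat.find (hex j), a1, a2, fun j j' hj hj' => ?_⟩
  beta_reduce
  by_contra hc
  have b1 := a1 j
  have b2 := (a2 (Nat.find (hex j')) (by omega) j (by omega)).2 (by omega)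
  have b3 := (a2 (Nat.find (hex j')) (by omega) j' hj').1 (h2 _ j j' hj (by omega) hj' b2)
  omega

end Vale.Agent.P037
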