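import Mathlib

namespace Vale.Agent.P037

open Finset Sum

/-- abstract data of the main part of the matrix -/
structure Dat (M T : Type) where
  ty : M → T
  fl : T → Bool
  A0 : M → M → Prop
  fp : M → ℕ
  P : ℕ
  far : M → M → Prop
  fp_lt : ∀ r, fp r < P
  chain : ∀ r r' c c', fl (ty r) = fl (ty r') → A0 r c' → A0 r' c → A0 r c ∨ A0 r' c'
  monoC : ∀ r c c', ty c = ty c' → fp c ≤ fp c' → A0 r c' → A0 r c
  monoR : ∀ r r' c, ty r = ty r' → fp r ≤ fp r' → A0 r c → A0 r' c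

/-- rule instances -/
abbrev Om (T : Type) := Fin 3 × T × T × T × T

/-- all lines -/
abbrev Lines (M T : Type) (b : ℕ) := (Om T × Fin 10 × Fin b) ⊕ M

variable {M T : Type} (d : Dat M T) {b : ℕ}

def Dat.act (ω : Om T) : Prop :=
  (ω.1 = 0 → d.fl ω.2.1 = true ∧ d.fl ω.2.2.1 = true) ∧
  (ω.1 = 1 → ω.2.2.2.1 = ω.2.2.2.2 ∧ ∀ r r' c, d.ty r = ω.2.1 → d.ty r' = ω.2.2.1 →
    d.ty c = ω.2.2.2.1 → d.far r r' → d.A0 r c → d.A0 r' c) ∧
  (ω.1 = 2 → ω.2.1 = ω.2.2.1 ∧ ∀ r c c', d.ty r = ω.2.1 → d.ty c = ω.2.2.2.1 →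
    d.ty c' = ω.2.2.2.2 → d.fp c ≤ d.fp c' → d.A0 r c' → d.A0 r c)

/-- the full matrix -/
def Dat.A : Lines M T b → Lines M T b → Prop
  | inr r, inr c => d.A0 r c
  | inl p, inl q => p.1 = q.1 ∧ d.act p.1 ∧ p.2.1 ≠ q.2.1 ∧ (p.2.1 = 9 → p.1.1 = 2) ∧
      (q.2.1 = 9 → p.1.1 = 1)
  | inl p, inr c => d.act p.1 ∧ (p.2.1 = 9 → p.1.1 = 2 ∧ d.ty c = p.1.2.2.2.1) ∧
      (d.ty c = p.1.2.2.2.1 ∨ d.ty c = p.1.2.2.2.2)
  | inr r, inl q => d.act q.1 ∧ (q.2.1 = 9 → q.1.1 = 1 ∧ d.ty r = q.1.2.2.1) ∧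
      (d.ty r = q.1.2.1 ∨ d.ty r = q.1.2.2.1)

def Dat.rkR : Lines M T b → ℕ
  | inl p => if p.2.1 = 9 then 10 + d.P else p.2.1
  | inr r => 10 + d.fp r

def Dat.rkC : Lines M T b → ℕ
  | inl p => p.2.1
  | inr r => 10 + d.fp r

lemma few_mixed {ι β : Type*} (S : Finset ι) (t : ι → β)
    (h1 : ∀ i ∈ S, ∃ v1 v2, ∀ j ∈ S, j ≠ i → t j = v1 ∨ t j = v2) (h2 : Set.InjOn t S) :
    S.card ≤ 3 := by
  classical
  rcases S.eq_empty_or_nonempty with h | ⟨i, hi⟩
  · simp [h]
  obtain ⟨v1, v2, h⟩ := h1 i hi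
  have : (S.erase i).card ≤ ({v1, v2} : Finset β).card :=
    card_le_card_of_injOn t (fun j hj => by
      simp only [coe_erase, Set.mem_sdiff, mem_coe, Set.mem_singleton_iff] at hj
      simpa using h j hj.1 hj.2) (h2.mono (by simp))
  have := card_le_two (a := v1) (b := v2)
  have := card_erase_of_mem hi
  omega

theorem rigid (ρ γ : Fin 11 → Lines M T b) (hA : ∀ i j, d.A (ρ i) (γ j) ↔ i ≠ j)
    (hρ : Monotone fun i => d.rkR (ρ i)) (hγ : Monotone fun i => d.rkC (γ i)) :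
    ∃ i i' r r', i ≠ i' ∧ ρ i = inr r ∧ ρ i' = inr r' ∧ d.fp r ≤ d.fp r' ∧ ¬ d.far r r' := by
  classical
  have hT : ∀ {i j}, i ≠ j → d.A (ρ i) (γ j) := fun h => (hA _ _).2 h
  have hF : ∀ i, ¬ d.A (ρ i) (γ i) := fun i h => (hA i i).1 h rfl
  let tyX : Lines M T b → Option T := Sum.elim (fun _ => none) (fun r => some (d.ty r))
  have s1 : (univ.filter fun i => (ρ i).isRight ∧ (γ i).isRight).card ≤ 2 := by
    have key : ∀ i j, i ≠ j → ((ρ i).isRight ∧ (γ i).isRight) → ((ρ j).isRight ∧ (γ j).isRight) →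
        (tyX (ρ i)).map d.fl ≠ (tyX (ρ j)).map d.fl := by
      intro i j hij hi hj
      obtain ⟨r, e1⟩ := isRight_iff.1 hi.1
      obtain ⟨c, e2⟩ := isRight_iff.1 hi.2
      obtain ⟨r', e3⟩ := isRight_iff.1 hj.1
      obtain ⟨c', e4⟩ := isRight_iff.1 hj.2
      have a1 := hT hij
      have a2 := hT hij.symm
      have a3 := hF i
      have a4 := hF j
      simp only [e1, e2, e3, e4, Dat.A] at a1 a2 a3 a4
      simp only [e1, e3, tyX, elim_inr, Option.map_some, ne_eq, Option.some.injEq]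
      intro h
      exact (d.chain r r' c c' h a1 a2).elim a3 a4
    have : (univ.filter fun i => (ρ i).isRight ∧ (γ i).isRight).card ≤
        ({some true, some false} : Finset (Option Bool)).card := by
      refine card_le_card_of_injOn (fun i => (tyX (ρ i)).map d.fl) (fun i hi => ?_) ?_
      · simp only [coe_filter, mem_univ, true_and, Set.mem_ofPred_eq] at hi
        obtain ⟨r, e1⟩ := isRight_iff.1 hi.1
        simp [e1, tyX]
      · intro i hi j hj h
        simp only [coe_filter, mem_univ, true_and, Set.mem_ofPred_eq] at hi hj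
        by_contra hne
        exact key i j hne hi hj h
    exact this.trans card_le_two
  have s2 : (univ.filter fun i => (ρ i).isLeft ∧ (γ i).isRight).card ≤ 3 := by
    refine few_mixed _ (fun i => tyX (γ i)) (fun i hi => ?_) (fun i hi j hj h => ?_)
    · obtain ⟨p, e1⟩ := isLeft_iff.1 (mem_filter.1 hi).2.1
      refine ⟨some p.1.2.2.2.1, some p.1.2.2.2.2, fun j hj hji => ?_⟩
      obtain ⟨c, e2⟩ := isRight_iff.1 (mem_filter.1 hj).2.2
      have a1 := hT hji.symm
      simp only [e1, e2, Dat.A] at a1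
      simpa [e2, tyX] using a1.2.2
    · simp only [coe_filter, mem_univ, true_and, Set.mem_ofPred_eq] at hi hj
      by_contra hne
      obtain ⟨p, e1⟩ := isLeft_iff.1 hi.1
      obtain ⟨c, e2⟩ := isRight_iff.1 hi.2
      obtain ⟨c', e3⟩ := isRight_iff.1 hj.2
      have a1 := hT hne
      have a2 := hF i
      simp only [e2, e3, tyX, elim_inr, Option.some.injEq] at h
      simp only [e1, e2, e3, Dat.A, h] at a1 a2
      exact a2 a1
  have s3 : (univ.filter fun i => (ρ i).isRight ∧ (γ i).isLeft).card ≤ 3 := by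
    refine few_mixed _ (fun i => tyX (ρ i)) (fun i hi => ?_) (fun i hi j hj h => ?_)
    · obtain ⟨p, e1⟩ := isLeft_iff.1 (mem_filter.1 hi).2.2
      refine ⟨some p.1.2.1, some p.1.2.2.1, fun j hj hji => ?_⟩
      obtain ⟨c, e2⟩ := isRight_iff.1 (mem_filter.1 hj).2.1
      have a1 := hT hji
      simp only [e1, e2, Dat.A] at a1
      simpa [e2, tyX] using a1.2.2
    · simp only [coe_filter, mem_univ, true_and, Set.mem_ofPred_eq] at hi hj
      by_contra hne
      obtain ⟨p, e1⟩ := isLeft_iff.1 hi.2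
      obtain ⟨c, e2⟩ := isRight_iff.1 hi.1
      obtain ⟨c', e3⟩ := isRight_iff.1 hj.1
      have a1 := hT (Ne.symm hne)
      have a2 := hF i
      simp only [e2, e3, tyX, elim_inr, Option.some.injEq] at h
      simp only [e1, e2, e3, Dat.A, h] at a1 a2
      exact a2 a1
  have s4 : 2 < (univ.filter fun i => (ρ i).isLeft ∧ (γ i).isLeft).card := by
    have hsub : (univ : Finset (Fin 11)) ⊆
        ((univ.filter fun i => (ρ i).isRight ∧ (γ i).isRight) ∪
        (univ.filter fun i => (ρ i).isLeft ∧ (γ i).isRight)) ∪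
        ((univ.filter fun i => (ρ i).isRight ∧ (γ i).isLeft) ∪
        (univ.filter fun i => (ρ i).isLeft ∧ (γ i).isLeft)) := by
      intro i _
      simp only [mem_union, mem_filter, mem_univ, true_and]
      cases ρ i <;> cases γ i <;> simp
    have a1 := (card_le_card hsub).trans ((card_union_le _ _).trans
      (add_le_add (card_union_le _ _) (card_union_le _ _)))
    rw [card_univ, Fintype.card_fin] at a1
    omega
  obtain ⟨p, q, t, hp, hq, ht, hpq, hpt, hqt⟩ := two_lt_card_iff.1 s4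
  obtain ⟨p1, ep1⟩ := isLeft_iff.1 (mem_filter.1 hp).2.1
  obtain ⟨p2, ep2⟩ := isLeft_iff.1 (mem_filter.1 hp).2.2
  obtain ⟨q1, eq1⟩ := isLeft_iff.1 (mem_filter.1 hq).2.1
  obtain ⟨q2, eq2⟩ := isLeft_iff.1 (mem_filter.1 hq).2.2
  obtain ⟨t1, et1⟩ := isLeft_iff.1 (mem_filter.1 ht).2.1
  obtain ⟨t2, et2⟩ := isLeft_iff.1 (mem_filter.1 ht).2.2
  have hsame : ∀ {i j x y}, i ≠ j → ρ i = inl x → γ j = inl y → x.1 = y.1 ∧ d.act x.1 ∧
      x.2.1 ≠ y.2.1 ∧ (x.2.1 = 9 → x.1.1 = 2) ∧ (y.2.1 = 9 → x.1.1 = 1) := by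
    intro i j x y h e1 e2
    have := hT h
    rwa [e1, e2] at this
  obtain ⟨ω, hω⟩ : ∃ ω, ω = p1.1 := ⟨_, rfl⟩
  have w1 : q2.1 = ω := (hsame hpq ep1 eq2).1.symm.trans hω.symm
  have w2 : t2.1 = ω := (hsame hpt ep1 et2).1.symm.trans hω.symm
  have w3 : q1.1 = ω := (hsame hqt eq1 et2).1.trans w2
  have w4 : p2.1 = ω := (hsame hpq.symm eq1 ep2).1.symm.trans w3
  have hact : d.act ω := hω ▸ (hsame hpq ep1 eq2).2.1
  have hcolx : ∀ i, ∃ j y, i ≠ j ∧ γ j = inl y ∧ y.1 = ω := by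
    intro i
    by_cases h : i = p
    · exact ⟨q, q2, h ▸ hpq, eq2, w1⟩
    · exact ⟨p, p2, h, ep2, w4⟩
  have hrowx : ∀ j, ∃ i x, i ≠ j ∧ ρ i = inl x ∧ x.1 = ω := by
    intro j
    by_cases h : p = j
    · exact ⟨q, q1, h ▸ hpq.symm, eq1, w3⟩
    · exact ⟨p, p1, h, ep1, hω.symm⟩
  have f1 : ∀ i x, ρ i = inl x → x.1 = ω ∧ (x.2.1 = 9 → ω.1 = 2) := by
    intro i x e
    obtain ⟨j, y, h1, h2, h3⟩ := hcolx i
    have := hsame h1 e h2
    have e' : x.1 = ω := this.1.trans h3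
    exact ⟨e', e' ▸ this.2.2.2.1⟩
  have f2 : ∀ j y, γ j = inl y → y.1 = ω ∧ (y.2.1 = 9 → ω.1 = 1) := by
    intro j y e
    obtain ⟨i, x, h1, h2, h3⟩ := hrowx j
    have := hsame h1 h2 e
    exact ⟨this.1.symm.trans h3, h3 ▸ this.2.2.2.2⟩
  have f3 : ∀ i r, ρ i = inr r → d.ty r = ω.2.1 ∨ d.ty r = ω.2.2.1 := by
    intro i r e
    obtain ⟨j, y, h1, h2, h3⟩ := hcolx i
    have := hT h1
    rw [e, h2] at this
    exact h3 ▸ this.2.2
  have f4 : ∀ j c, γ j = inr c → d.ty c = ω.2.2.2.1 ∨ d.ty c = ω.2.2.2.2 := by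
    intro j c e
    obtain ⟨i, x, h1, h2, h3⟩ := hrowx j
    have := hT h1
    rw [e, h2] at this
    exact h3 ▸ this.2.2
  have f5 : ∀ i x, ρ i = inl x → x.2.1 ≠ 9 → ∃ y, γ i = inl y ∧ y.2.1 = x.2.1 := by
    intro i x e h9
    have a := hF i
    have b1 := f1 i x e
    rcases e2 : γ i with y | c
    · refine ⟨y, rfl, ?_⟩
      have b2 := f2 i y e2
      rw [e, e2] at a
      by_contra hne
      exact a ⟨b1.1.trans b2.1.symm, b1.1 ▸ hact, Ne.symm hne, fun h => absurd h h9,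
        fun h => b1.1 ▸ b2.2 h⟩
    · rw [e, e2] at a
      exact absurd ⟨b1.1 ▸ hact, fun h => absurd h h9, b1.1 ▸ f4 i c e2⟩ a
  let role : Lines M T b → Fin 10 := Sum.elim (fun x => x.2.1) (fun _ => 9)
  have s5 : (univ.filter fun i => role (ρ i) ≠ 9).card ≤ 9 := by
    have : (univ.filter fun i => role (ρ i) ≠ 9).card ≤ (univ.erase (9 : Fin 10)).card := by
      refine card_le_card_of_injOn (fun i => role (ρ i)) (fun i hi => by simpa using hi) ?_
      intro i hi j hj h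
      simp only [coe_filter, mem_univ, true_and, Set.mem_ofPred_eq] at hi hj
      by_contra hne
      rcases e1 : ρ i with x | r
      · rcases e2 : ρ j with x' | r
        · simp only [e1, e2, role, elim_inl] at hi hj h
          obtain ⟨y, e3, e4⟩ := f5 j x' e2 hj
          exact (hsame hne e1 e3).2.2.1 (h.trans e4.symm)
        · simp [e2, role] at hj
      · simp [e1, role] at hi
    simpa using this
  have s6 : 1 < (univ.filter fun i => ¬ role (ρ i) ≠ 9).card := by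
    have := card_filter_add_card_filter_not (s := (univ : Finset (Fin 11))) (fun i => role (ρ i) ≠ 9)
    rw [card_univ, Fintype.card_fin] at this
    omega
  have f6 : ∀ i y, ¬ role (ρ i) ≠ 9 → γ i = inl y → y.2.1 = 9 := by
    intro i y h e2
    have a := hF i
    have b2 := f2 i y e2
    by_contra h9
    rcases e : ρ i with x | r
    · have b1 := f1 i x e
      simp only [e, role, elim_inl, ne_eq, not_not] at h
      rw [e, e2] at a
      exact a ⟨b1.1.trans b2.1.symm, b1.1 ▸ hact, h ▸ Ne.symm h9, fun h => b1.1 ▸ b1.2 h,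
        fun h => absurd h h9⟩
    · rw [e, e2] at a
      exact a ⟨b2.1 ▸ hact, fun h => absurd h h9, b2.1 ▸ f3 i r e⟩
  obtain ⟨i, i', hi, hi', hlt⟩ : ∃ i i', ¬ role (ρ i) ≠ 9 ∧ ¬ role (ρ i') ≠ 9 ∧ i < i' := by
    obtain ⟨i, hi, j, hj, hne⟩ := one_lt_card.1 s6
    rcases lt_or_gt_of_ne hne with h | h
    · exact ⟨i, j, (mem_filter.1 hi).2, (mem_filter.1 hj).2, h⟩
    · exact ⟨j, i, (mem_filter.1 hj).2, (mem_filter.1 hi).2, h⟩
  have a11 := hF i
  have a22 := hF i'
  have a12 := hT hlt.ne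
  have a21 := hT hlt.ne'
  have m1 := hρ hlt.le
  have m2 := hγ hlt.le
  simp only at m1 m2
  obtain ⟨r, er⟩ : ∃ r, ρ i = inr r := by
    rcases e : ρ i with x | r
    · exfalso
      simp only [e, role, elim_inl, ne_eq, not_not] at hi
      rcases e' : ρ i' with x' | r'
      · simp only [e', role, elim_inl, ne_eq, not_not] at hi'
        have b1 := (f1 i x e).1
        have b2 := (f1 i' x' e').1
        rw [e] at a11
        rw [e'] at a21
        apply a11
        cases hc : γ i <;> simp only [hc, Dat.A, b1, b2, hi, hi'] at a21 ⊢ <;> exact a21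
      · have := d.fp_lt r'
        simp only [e, e', Dat.rkR, hi, if_true] at m1
        omega
    · exact ⟨r, rfl⟩
  obtain ⟨c', ec'⟩ : ∃ c, γ i' = inr c := by
    rcases e' : γ i' with y' | c
    · exfalso
      have b0 := f6 i' y' hi' e'
      rcases e : γ i with y | c
      · have b1 := (f2 i y e).1
        have b2 := (f2 i' y' e').1
        have b3 := f6 i y hi e
        rw [e, er] at a11
        rw [e', er] at a12
        apply a11
        simp only [Dat.A, b1, b2, b0, b3] at a12 ⊢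
        exact a12
      · simp only [e, e', Dat.rkC, b0] at m2
        omega
    · exact ⟨c, rfl⟩
  have g1 := f3 i r er
  have g2 := f4 i' c' ec'
  rcases er' : ρ i' with x | r' <;> rcases ec : γ i with y | c
  · simp only [er', role, elim_inl, ne_eq, not_not] at hi'
    have b1 := (f1 i' x er').2 hi'
    have b2 := (f2 i y ec).2 (f6 i y hi ec)
    rw [b1] at b2
    exact absurd b2 (by decide)
  · exfalso
    simp only [er', role, elim_inl, ne_eq, not_not] at hi'
    have b1 := f1 i' x er'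
    have b2 := hact.2.2 (b1.2 hi')
    simp only [er, er', ec, ec', Dat.A, Dat.rkC, b1.1] at a11 a12 a21 a22 m2
    refine a11 (b2.2 r c c' (g1.elim id fun h => h.trans b2.1.symm) (a21.2.1 hi').2 ?_
      (by omega) a12)
    exact g2.resolve_left fun h => a22 ⟨hact, fun _ => ⟨b1.2 hi', h⟩, Or.inl h⟩
  · have b0 := f6 i y hi ec
    have b1 := f2 i y ec
    have b2 := hact.2.1 (b1.2 b0)
    simp only [er, er', ec, ec', Dat.A, Dat.rkR, b1.1] at a11 a12 a21 a22 m1
    refine ⟨i, i', r, r', hlt.ne, er, er', by omega, fun hfar => a22 (b2.2 r r' c' ?_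
      (a21.2.1 b0).2 (g2.elim id fun h => h.trans b2.1.symm) hfar a12)⟩
    exact g1.resolve_right fun h => a11 ⟨hact, fun _ => ⟨b1.2 b0, h⟩, Or.inr h⟩
  · exfalso
    have g3 := f3 i' r' er'
    have g4 := f4 i c ec
    simp only [er, er', ec, ec', Dat.A, Dat.rkR, Dat.rkC] at a11 a12 a21 a22 m1 m2
    have hk : ω.1 = 0 ∨ ω.1 = 1 ∨ ω.1 = 2 := by
      generalize ω.1 = k
      revert k; decide
    rcases hk with h | h | h
    · have b := hact.1 h
      have e1 : d.fl (d.ty r) = true := by rcases g1 with g | g <;> rw [g] <;> tauto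
      have e2 : d.fl (d.ty r') = true := by rcases g3 with g | g <;> rw [g] <;> tauto
      exact (d.chain r r' c c' (e1.trans e2.symm) a12 a21).elim a11 a22
    · have b := (hact.2.1 h).1
      rw [← b, or_self] at g2 g4
      exact a11 (d.monoC r c c' (g4.trans g2.symm) (by omega) a12)
    · have b := (hact.2.2 h).1
      rw [← b, or_self] at g1 g3
      exact a22 (d.monoR r r' c' (g1.trans g3.symm) (by omega) a12)

end Vale.Agent.P037
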