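import Vale.Agent.P037.Rec

namespace Vale.Agent.P037

open Finset

/-- a main line: position, slot, flag, rounding level, value level, value digit -/
structure Ln where
  x : ℕ
  z : ℕ
  fl : Bool
  h : ℕ
  g : ℕ
  m : ℕ

def rd (h x : ℕ) : ℕ := x / 2 ^ h * 2 ^ h

def res (K h x : ℕ) : ℕ := x / 2 ^ h % (K + 1)

def Ln.val (l : Ln) : ℕ := l.m * 2 ^ l.g

def bt (fl : Bool) (c : Ln) : ℕ := if fl then c.val else 0

/-- the entry of the model matrix is one -/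
def tr (r c : Ln) : Prop := rd c.h c.x + bt r.fl c ≤ rd r.h r.x + r.val

def Ln.lt (r r' : Ln) : Prop := r.x < r'.x ∨ (r.x = r'.x ∧ r.z < r'.z)

def gd (K G Z : ℕ) (good : ℕ → Prop) (l : Ln) : Prop :=
  good l.x ∧ l.z < Z ∧ l.h ≤ G ∧ l.g ≤ G ∧ l.m ≤ K

lemma rd_zero (x : ℕ) : rd 0 x = x := by simp [rd]

lemma rd_le (h x : ℕ) : rd h x ≤ x := Nat.div_mul_le_self _ _

lemma lt_rd (h x : ℕ) : x < rd h x + 2 ^ h := Nat.lt_div_mul_add (by positivity)

lemma rd_mono (h : ℕ) {x y : ℕ} (hxy : x ≤ y) : rd h x ≤ rd h y :=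
  Nat.mul_le_mul_right _ (Nat.div_le_div_right hxy)

lemma rd_res {K h a a' w m : ℕ} (hm : m ≤ K) (haa : a ≤ a') (h1 : res K h a = res K h w)
    (h2 : res K h a' = res K h (w + m * 2 ^ h)) : rd h a + m * 2 ^ h ≤ rd h a' := by
  unfold res at h1 h2
  rw [Nat.add_mul_div_right _ _ (by positivity)] at h2
  have h3 : a / 2 ^ h ≤ a' / 2 ^ h := Nat.div_le_div_right haa
  unfold rd
  rw [← add_mul]
  apply Nat.mul_le_mul_right
  generalize a / 2 ^ h = p at *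
  generalize a' / 2 ^ h = p' at *
  generalize w / 2 ^ h = q at *
  have h4 : p' ≡ p + m [MOD (K + 1)] := by
    have : q + m ≡ p + m [MOD (K + 1)] := Nat.ModEq.add_right m h1.symm
    exact Nat.ModEq.trans h2 this
  by_contra hc
  have h5 := (Nat.modEq_iff_dvd' (by omega : p' ≤ p + m)).1 h4
  have := Nat.le_of_dvd (by omega) h5
  omega

/-- the inference rules satisfied by a repaired matrix; `N r c` means that the entry is zero -/
structure Rules (K G n0 Z : ℕ) (good : ℕ → Prop) (N : Ln → Ln → Prop) : Prop where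
  R1 : ∀ r r' c, gd K G Z good r → gd K G Z good r' → gd K G Z good c → r.z ≠ r'.z → r.lt r' →
    (∀ a a', a + K < a' → res K r.h a = res K r.h r.x → res K r'.h a' = res K r'.h r'.x →
      rd r.h a + r.val + bt r'.fl c ≤ rd r'.h a' + r'.val + bt r.fl c) → N r' c → N r c
  R2 : ∀ r c c', gd K G Z good r → gd K G Z good c → gd K G Z good c' → c.z ≠ c'.z → c.lt c' →
    (∀ a a', a ≤ a' → res K c.h a = res K c.h c.x → res K c'.h a' = res K c'.h c'.x →
      rd c.h a + bt r.fl c ≤ rd c'.h a' + bt r.fl c') → N r c → N r c'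
  D : ∀ r r' c c', gd K G Z good r → gd K G Z good r' → gd K G Z good c → gd K G Z good c' →
    r.fl = true → r'.fl = true → r.lt r' → c.lt c' → N r c → ¬ N r' c → N r' c' → N r c'
  row : ∀ r, gd K G Z good r → ∀ (s : Finset ℕ) (f : ℕ → Ln), Set.InjOn (fun j => (f j).x) s →
    (∀ j ∈ s, gd K G Z good (f j) ∧ N r (f j) ∧ tr r (f j)) → 200 * s.card ≤ n0
  col : ∀ c, gd K G Z good c → ∀ (s : Finset ℕ) (f : ℕ → Ln), Set.InjOn (fun j => (f j).x) s →
    (∀ j ∈ s, gd K G Z good (f j) ∧ ¬ N (f j) c ∧ ¬ tr (f j) c) → 200 * s.card ≤ n0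

variable {K G n0 Z : ℕ} {good : ℕ → Prop} {N : Ln → Ln → Prop}

lemma Rules.R1u (R : Rules K G n0 Z good N) {x z x' z' g m g' m' : ℕ} {fl fl' : Bool} {c : Ln}
    (h1 : good x) (h2 : good x') (hc : gd K G Z good c) (hz : z < Z) (hz' : z' < Z) (hg : g ≤ G)
    (hg' : g' ≤ G) (hm : m ≤ K) (hm' : m' ≤ K) (hne : z ≠ z') (hlt : x < x' ∨ (x = x' ∧ z < z'))
    (hv : m * 2 ^ g + bt fl' c ≤ m' * 2 ^ g' + bt fl c + K)
    (h : N ⟨x', z', fl', 0, g', m'⟩ c) : N ⟨x, z, fl, 0, g, m⟩ c := by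
  refine R.R1 ⟨x, z, fl, 0, g, m⟩ ⟨x', z', fl', 0, g', m'⟩ c ⟨h1, hz, Nat.zero_le _, hg, hm⟩
    ⟨h2, hz', Nat.zero_le _, hg', hm'⟩ hc hne hlt (fun a a' haa _ _ => ?_) h
  simp only [rd_zero, Ln.val]
  omega

lemma Rules.R2u (R : Rules K G n0 Z good N) {y z y' z' g m g' m' : ℕ} {r : Ln}
    (h1 : good y) (h2 : good y') (hr : gd K G Z good r) (hz : z < Z) (hz' : z' < Z) (hg : g ≤ G)
    (hg' : g' ≤ G) (hm : m ≤ K) (hm' : m' ≤ K) (hne : z ≠ z') (hlt : y < y' ∨ (y = y' ∧ z < z'))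
    (hv : r.fl = false)
    (h : N r ⟨y, z, false, 0, g, m⟩) : N r ⟨y', z', false, 0, g', m'⟩ := by
  refine R.R2 r ⟨y, z, false, 0, g, m⟩ ⟨y', z', false, 0, g', m'⟩ hr ⟨h1, hz, Nat.zero_le _, hg, hm⟩
    ⟨h2, hz', Nat.zero_le _, hg', hm'⟩ hne hlt (fun a a' haa _ _ => ?_) h
  simp only [rd_zero, hv, bt]
  simpa using haa

/-- reference line -/
def W0 (x z : ℕ) : Ln := ⟨x, z, false, 0, 0, 0⟩

lemma gd_W0 {x z : ℕ} (h : good x) (hz : z < Z) : gd K G Z good (W0 x z) :=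
  ⟨h, hz, Nat.zero_le _, Nat.zero_le _, Nat.zero_le _⟩

/-- the row phase -/
lemma Rules.rphase (R : Rules K G n0 Z good N) [DecidablePred good] {x x' zL l g : ℕ} {c : Ln}
    (hx : VG good n0 x) (hx' : good x') (hc : gd K G Z good c) (hzL : zL < Z) (hg : g ≤ G)
    (hl : x + l ≤ x') (hn : x' < n0) (hlK : l ≤ K * 2 ^ g) (h : N (W0 x' zL) c)
    {z g' m' : ℕ} (hz : z < zL) (hg' : g' ≤ G) (hm' : m' ≤ K)
    (hv : m' = 0 ∨ 8 * (m' * 2 ^ g') + 16 * 2 ^ g + 16 ≤ 7 * l) :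
    N ⟨x, z, false, 0, g', m'⟩ c := by
  have hs : 0 < 2 ^ g := by positivity
  rcases hv with hv | hv
  · subst hv
    exact R.R1u hx.good hx' hc (by omega) hzL hg' (Nat.zero_le _) hm' (Nat.zero_le _) (by omega)
      (by omega) (by simp [bt]) h
  obtain ⟨m, h1, h2, h3⟩ := pair hx l (2 ^ g) hs (by omega)
  have hmK : m ≤ K := Nat.le_of_mul_le_mul_right (h2.trans hlK) hs
  rcases h3 with h3 | ⟨w, a1, a2, a3, a4⟩
  · subst h3; omega
  have s1 : N ⟨w + m * 2 ^ g, z, false, g, 0, 0⟩ c := by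
    refine R.R1 _ (W0 x' zL) c ⟨a4, by simp only; omega, hg, Nat.zero_le _, Nat.zero_le _⟩
      (gd_W0 hx' hzL) hc (by simp only [W0]; omega) (Or.inl (by simp only [W0]; omega))
      (fun a a' haa _ _ => ?_) h
    have := rd_le g a
    simp only [W0, rd_zero, Ln.val, bt]
    simp; omega
  have s2 : N ⟨w, zL, false, g, g, m⟩ c := by
    have hm0 : 0 < m * 2 ^ g := by omega
    refine R.R1 _ _ c ⟨a3, hzL, hg, hg, hmK⟩
      ⟨a4, by simp only; omega, hg, Nat.zero_le _, Nat.zero_le _⟩ hc (by simp only; omega)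
      (Or.inl (by simp only; omega)) (fun a a' haa b1 b2 => ?_) s1
    have := rd_res hmK (by omega) b1 b2
    simp only [Ln.val, bt]
    simp; omega
  refine R.R1 _ _ c ⟨hx.good, by simp only; omega, Nat.zero_le _, hg', hm'⟩ ⟨a3, hzL, hg, hg, hmK⟩
    hc (by simp only; omega) (Or.inl a1) (fun a a' haa _ _ => ?_) s2
  have := lt_rd g a'
  simp only [rd_zero, Ln.val, bt]
  simp; omega

/-- the column phase -/
lemma Rules.cphase (R : Rules K G n0 Z good N) [DecidablePred good] {x y y' zA l g a z : ℕ}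
    (hx : good x) (hy : VG good n0 y) (hy' : good y') (hzA : zA + 1 < Z) (hg : g ≤ G)
    (hl : y + l ≤ y') (hn : y' < n0) (hlK : a * 2 ^ g + l ≤ K * 2 ^ g) (hz : z < Z)
    (h : N ⟨x, z, false, 0, g, a⟩ (W0 y zA))
    {z' g' m' : ℕ} (hz' : z' + 2 ≤ z) (hg' : g' ≤ G) (hm' : m' ≤ K)
    (hv : 8 * (m' * 2 ^ g') + 16 * 2 ^ g + 16 ≤ 8 * (a * 2 ^ g) + 7 * l) :
    N ⟨x, z', false, 0, g', m'⟩ (W0 y' zA) := by
  have hs : 0 < 2 ^ g := by positivity
  have haK : a ≤ K := Nat.le_of_mul_le_mul_right (by omega : a * 2 ^ g ≤ K * 2 ^ g) hs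
  obtain ⟨b, h1, h2, h3⟩ := pair hy l (2 ^ g) hs (by omega)
  have hW : gd K G Z good ⟨x, z, false, 0, g, a⟩ := ⟨hx, hz, Nat.zero_le _, hg, haK⟩
  rcases Nat.eq_zero_or_pos b with hb | hb
  · subst hb
    have s1 : N ⟨x, z, false, 0, g, a⟩ (W0 y' zA) := by
      rcases eq_or_lt_of_le (by omega : y ≤ y') with e | e
      · rw [← e]; exact h
      · exact R.R2u hy.good hy' hW hzA (by omega) (Nat.zero_le _) (Nat.zero_le _) (Nat.zero_le _)
          (Nat.zero_le _) (by omega) (Or.inl e) rfl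
          (R.R2u hy.good hy.good hW (by omega) hzA (Nat.zero_le _) (Nat.zero_le _) (Nat.zero_le _)
            (Nat.zero_le _) (by omega) (by omega) rfl h)
    exact R.R1u hx hx (gd_W0 hy' (by omega)) (by omega) hz hg' hg hm' haK (by omega) (by omega)
      (by simp only [bt]; simp; omega) s1
  obtain ⟨w, a1, a2, a3, a4⟩ := h3.resolve_left (by omega)
  have hb0 : 0 < b * 2 ^ g := by positivity
  obtain ⟨b, rfl⟩ : ∃ b', b = b' + 1 := ⟨b - 1, by omega⟩
  have e1 : (b + 1) * 2 ^ g = b * 2 ^ g + 2 ^ g := by ring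
  have e2 : (a + b) * 2 ^ g = a * 2 ^ g + b * 2 ^ g := by ring
  have habK : a + (b + 1) ≤ K := Nat.le_of_mul_le_mul_right
    (by rw [add_mul]; omega : (a + (b + 1)) * 2 ^ g ≤ K * 2 ^ g) hs
  have hP : gd K G Z good ⟨x, z - 1, true, 0, g, a + b⟩ :=
    ⟨hx, by simp only; omega, Nat.zero_le _, hg, by simp only; omega⟩
  have c1 : gd K G Z good ⟨y, zA + 1, false, 0, g, b⟩ :=
    ⟨hy.good, hzA, Nat.zero_le _, hg, by simp only; omega⟩
  have c2 : gd K G Z good ⟨w, zA, false, g, g, b + 1⟩ :=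
    ⟨a3, by simp only; omega, hg, hg, by simp only; omega⟩
  have c3 : gd K G Z good ⟨w + (b + 1) * 2 ^ g, zA + 1, false, g, 0, 0⟩ :=
    ⟨a4, hzA, hg, Nat.zero_le _, Nat.zero_le _⟩
  have s1 : N ⟨x, z, false, 0, g, a⟩ ⟨y, zA + 1, false, 0, g, b⟩ :=
    R.R2u hy.good hy.good hW (by omega) hzA (Nat.zero_le _) hg (Nat.zero_le _) (by omega)
      (by omega) (by omega) rfl h
  have s2 : N ⟨x, z - 1, true, 0, g, a + b⟩ ⟨y, zA + 1, false, 0, g, b⟩ :=
    R.R1u hx hx c1 (by omega) hz hg hg (by omega) haK (by omega) (by omega)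
      (by simp only [bt, Ln.val]; simp; omega) s1
  have s3 : N ⟨x, z - 1, true, 0, g, a + b⟩ ⟨w, zA, false, g, g, b + 1⟩ := by
    refine R.R2 _ _ _ hP c1 c2 (by simp) (Or.inl a1) (fun u u' huu _ _ => ?_) s2
    have := lt_rd g u'
    simp only [rd_zero, Ln.val, bt]
    simp; omega
  have s4 : N ⟨x, z - 1, true, 0, g, a + b⟩ ⟨w + (b + 1) * 2 ^ g, zA + 1, false, g, 0, 0⟩ := by
    refine R.R2 _ _ _ hP c2 c3 (by simp) (Or.inl (by simp only; omega))
      (fun u u' huu b1 b2 => ?_) s3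
    have := rd_res (by omega) huu b1 b2
    simp only [Ln.val, bt]
    simp; omega
  have s5 : N ⟨x, z - 1, true, 0, g, a + b⟩ (W0 y' zA) := by
    refine R.R2 _ _ _ hP c3 (gd_W0 hy' (by omega)) (by simp [W0])
      (Or.inl (by simp only [W0]; omega)) (fun u u' huu _ _ => ?_) s4
    have := rd_le g u
    simp only [W0, rd_zero, Ln.val, bt]
    simp; omega
  exact R.R1u hx hx (gd_W0 hy' (by omega)) (by omega) (by omega) hg' hg hm' (by omega) (by omega)
    (by omega) (by simp only [bt, Ln.val, W0]; simp; omega) s5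

/-- addition through a junction -/
lemma Rules.add (R : Rules K G n0 Z good N) {x x2 y1 y zF zA zB g a b z : ℕ}
    (hx : good x) (hx2 : good x2) (hy1 : good y1) (hy : good y) (hxx : x < x2) (hyy : y1 < y)
    (hzB : zB < Z) (hAB : zA + 1 < zB) (hz : z < Z) (hzF : zF + 2 ≤ z) (hg : g ≤ G)
    (hab : a + b ≤ K) (h1 : N ⟨x, z, false, 0, g, a⟩ (W0 y1 zA))
    (h2 : N ⟨x2, z, false, 0, g, b⟩ (W0 y zA)) (h3 : ¬ N (W0 x2 zF) (W0 y1 zB))
    {z' g' m' : ℕ} (hz' : z' + 2 ≤ z) (hg' : g' ≤ G) (hm' : m' ≤ K)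
    (hv : m' * 2 ^ g' ≤ (a + b) * 2 ^ g) : N ⟨x, z', false, 0, g', m'⟩ (W0 y zA) := by
  have e2 : (a + b) * 2 ^ g = a * 2 ^ g + b * 2 ^ g := by ring
  have c1 : gd K G Z good ⟨y1, zA + 1, false, 0, g, b⟩ :=
    ⟨hy1, by simp only; omega, Nat.zero_le _, hg, by simp only; omega⟩
  have c2 : gd K G Z good (W0 y zA) := gd_W0 hy (by omega)
  have s1 : N ⟨x, z, false, 0, g, a⟩ ⟨y1, zA + 1, false, 0, g, b⟩ :=
    R.R2u hy1 hy1 ⟨hx, hz, Nat.zero_le _, hg, by simp only; omega⟩ (by omega) (by omega)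
      (Nat.zero_le _) hg (Nat.zero_le _) (by omega) (by omega) (by omega) rfl h1
  have s2 : N ⟨x, z - 1, true, 0, g, a + b⟩ ⟨y1, zA + 1, false, 0, g, b⟩ :=
    R.R1u hx hx c1 (by omega) hz hg hg hab (by omega) (by omega) (by omega)
      (by simp only [bt, Ln.val]; simp; omega) s1
  have s3 : N ⟨x2, z - 1, true, 0, g, b⟩ (W0 y zA) :=
    R.R1u hx2 hx2 c2 (by omega) hz hg hg (by omega) (by omega) (by omega) (by omega)
      (by simp only [bt, Ln.val, W0]; simp) h2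
  have s4 : ¬ N ⟨x2, z - 1, true, 0, g, b⟩ ⟨y1, zA + 1, false, 0, g, b⟩ := by
    intro h
    apply h3
    have t1 : N (W0 x2 zF) ⟨y1, zA + 1, false, 0, g, b⟩ :=
      R.R1u hx2 hx2 c1 (by omega) (by omega) (Nat.zero_le _) hg (Nat.zero_le _) (by omega)
        (by omega) (by omega) (by simp only [bt, Ln.val]; simp) h
    exact R.R2u hy1 hy1 (gd_W0 hx2 (by omega)) (by omega) hzB hg (Nat.zero_le _) (by omega)
      (Nat.zero_le _) (by omega) (by omega) rfl t1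
  have s5 := R.D _ _ _ _ ⟨hx, by simp only; omega, Nat.zero_le _, hg, hab⟩
    ⟨hx2, by simp only; omega, Nat.zero_le _, hg, by simp only; omega⟩ c1 c2 rfl rfl
    (Or.inl hxx) (Or.inl hyy) s2 s4 s3
  exact R.R1u hx hx c2 (by omega) (by omega) hg' hg hm' hab (by omega)
    (by omega) (by simp only [bt, Ln.val, W0]; simp; omega) s5

end Vale.Agent.P037
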